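import Vale.Agent.P032.Words.H349.TieSym
import Vale.Agent.P032.S5.H767.Raw
import Vale.Agent.P032.S5.H12.En

/-!
# P032: the word facts L1, L2, L3 for the ends of the circle of a four coloured centre

`Cln T z v`: `v` is a clean end of `S(z)`: on one side of `v` the circle carries exactly the pair
`T z ∩ T v`, on the other side it does not carry this pair.
-/

open Set Filter Topology Metric

noncomputable section

namespace Vale.Agent.P032.S5.H349

open Vale.Agent.P032.Six Vale.Agent.P032.Words Vale.Agent.P032.S5.H767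

variable {U : Fin 6 → Set ℂ} {T : ℂ → Set (Fin 6)} {z : ℂ} {a b c d e f : Fin 6}

/-- The word of a four coloured centre. -/
theorem rawT (C : Ctr U T z a b c d e f) (h3 : ∀ y, dist y z = 1 → (T y).ncard ≤ 3) :
    RawT (Xs T z a b c d e f) where
  closed := C.x_closed
  cover := C.x_cover
  per := fun l u => C.x_per l u
  anti := fun u h => C.x_anti (h3 _ (dist_pt z u)) h
  ac := fun u h => C.x_ac (h3 _ (dist_pt z u)) h
  two := fun u _ _ _ h1 h2 h4 => C.x_two (h3 _ (dist_pt z u)) h1 h2 h4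
  own := fun _ _ h1 h2 => C.x_own h1 h2
  own' := fun _ _ h1 h2 => C.x_own' h1 h2
  swap := fun u _ _ h1 h2 h4 h5 => C.x_swap (h3 _ (dist_pt z u)) (h3 _ (dist_pt z (u + 1))) h1 h2 h4 h5
  dbl := fun u _ _ hlm h1 h2 h4 h5 => C.x_dbl hlm (h3 _ (dist_pt z (u + 1))) (h3 _ (dist_pt z u))
    (h3 _ (dist_pt z (u + 2))) h1 h2 h4 h5
  three := fun u _ _ hlm h1 h2 h4 h5 => C.x_three hlm (h3 _ (dist_pt z (u + 1)))
    (h3 _ (dist_pt z u)) (h3 _ (dist_pt z (u + 2))) h1 h2 h4 h5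

/-- `v` is a clean end of the circle `S(z)` -/
def Cln (T : ℂ → Set (Fin 6)) (z v : ℂ) : Prop :=
  ∃ o ε : ℝ, (o = 1 ∨ o = -1) ∧ 0 < ε ∧
    (∀ t ∈ Ioo 0 ε, T (z + (v - z) * cis (-(o * t))) = T z ∩ T v) ∧
    ∀ t ∈ Ioo 0 ε, ¬ T z ∩ T v ⊆ T (z + (v - z) * cis (o * t))

theorem pt_rot (z : ℂ) (V s : ℝ) : z + (pt z V - z) * cis s = pt z (V + s * (3 / Real.pi)) := by
  unfold pt
  have h1 : (V + s * (3 / Real.pi)) * (Real.pi / 3) = V * (Real.pi / 3) + s := by
    have := Real.pi_ne_zero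
    field_simp
  rw [h1, cis_add]; ring

theorem exists_pt {z v : ℂ} (hv : dist v z = 1) : ∃ V, v = pt z V := by
  obtain ⟨θ, hθ⟩ := exists_cis (u := v - z) (by rw [← dist_eq_norm]; exact hv)
  refine ⟨θ * (3 / Real.pi), ?_⟩
  have : θ * (3 / Real.pi) * (Real.pi / 3) = θ := by
    have := Real.pi_ne_zero
    field_simp
  unfold pt
  rw [this, ← hθ]; ring

theorem pt_eq {z : ℂ} {u V : ℝ} (h : pt z u = pt z V) : ∃ n : ℤ, u = V + 6 * n := by
  have h1 : cis (u * (Real.pi / 3)) = cis (V * (Real.pi / 3)) := by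
    unfold pt at h; exact add_left_cancel h
  unfold cis at h1
  obtain ⟨n, hn⟩ := Complex.exp_eq_exp_iff_exists_int.1 h1
  refine ⟨n, ?_⟩
  have h2 := congrArg Complex.im hn
  simp at h2
  have hpi := Real.pi_pos
  have h4 : u * (Real.pi / 3) = (V + 6 * n) * (Real.pi / 3) := by
    rw [h2]; ring
  exact mul_right_cancel₀ (by positivity) h4

/-- the two sides of a clean end in the angle coordinate -/
theorem sides (h : Irr U T) {V : ℝ} {P : Set (Fin 6)} (hP2 : P.ncard = 2)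
    (hP : T z ∩ T (pt z V) = P) {x : Fin 6} (hx : x ∉ P) (hc : Cln T z (pt z V)) :
    pt z V ∈ closure (Ex T z P) ∧
    (((∀ᶠ u in 𝓝[<] V, x ∉ T (pt z u)) ∧ ∀ᶠ u in 𝓝[>] V, pt z u ∉ closure (Ex T z P)) ∨
     ((∀ᶠ u in 𝓝[>] V, x ∉ T (pt z u)) ∧ ∀ᶠ u in 𝓝[<] V, pt z u ∉ closure (Ex T z P))) := by
  obtain ⟨o, ε, ho, hε, h1, h2⟩ := hc
  have hPz : P ⊆ T z := by rw [← hP]; exact inter_subset_left
  rw [hP] at h1 h2
  have hpi := Real.pi_pos
  set δ := ε * (3 / Real.pi) with hδ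
  have hδ0 : 0 < δ := by positivity
  have hk : ∀ s, 0 < s → s < δ → s / (3 / Real.pi) ∈ Ioo 0 ε := by
    intro s hs0 hs
    refine ⟨by positivity, ?_⟩
    rw [div_lt_iff₀ (by positivity)]; exact hs
  have hs3 : ∀ s : ℝ, s / (3 / Real.pi) * (3 / Real.pi) = s := by
    intro s
    exact div_mul_cancel₀ _ (by positivity)
  -- the arc side and the other side
  have harc : ∀ s, 0 < s → s < δ → T (pt z (V + -(o * s))) = P := by
    intro s hs0 hs
    have := h1 _ (hk s hs0 hs)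
    rw [pt_rot] at this
    rw [← this]
    congr 2
    have := hs3 s
    linear_combination o * this
  have hoth : ∀ s, 0 < s → s < δ → ¬ P ⊆ T (pt z (V + o * s)) := by
    intro s hs0 hs
    have := h2 _ (hk s hs0 hs)
    rw [pt_rot] at this
    have e : o * (s / (3 / Real.pi)) * (3 / Real.pi) = o * s := by
      have := hs3 s
      linear_combination o * this
    rw [e] at this
    exact this
  have hEx : ∀ s, 0 < s → s < δ → pt z (V + -(o * s)) ∈ Ex T z P := fun s hs0 hs =>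
    ⟨dist_pt z _, h.pair_open hP2 hPz (harc s hs0 hs).subset⟩
  refine ⟨?_, ?_⟩
  · have hcont : Tendsto (fun s : ℝ => pt z (V + -(o * s))) (𝓝[>] 0) (𝓝 (pt z V)) := by
      have h4 : Continuous fun s : ℝ => pt z (V + -(o * s)) :=
        (continuous_pt z).comp (by fun_prop)
      have h5 := h4.tendsto 0
      rw [mul_zero, neg_zero, add_zero] at h5
      exact h5.mono_left nhdsWithin_le_nhds
    refine mem_closure_of_tendsto hcont ?_
    filter_upwards [Ioo_mem_nhdsGT hδ0] with s hs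
    exact hEx s hs.1 hs.2
  · rcases ho with rfl | rfl
    · left
      constructor
      · filter_upwards [Ioo_mem_nhdsLT (show V - δ < V by linarith)] with u hu hxu
        have := harc (V - u) (by linarith [hu.2]) (by linarith [hu.1])
        rw [show V + -(1 * (V - u)) = u by ring] at this
        rw [this] at hxu
        exact hx hxu
      · filter_upwards [Ioo_mem_nhdsGT (show V < V + δ by linarith)] with u hu hcl
        have := hoth (u - V) (by linarith [hu.1]) (by linarith [hu.2])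
        rw [show V + 1 * (u - V) = u by ring] at this
        exact this (sub_of_closure h hcl)
    · right
      constructor
      · filter_upwards [Ioo_mem_nhdsGT (show V < V + δ by linarith)] with u hu hxu
        have := harc (u - V) (by linarith [hu.1]) (by linarith [hu.2])
        rw [show V + -(-1 * (u - V)) = u by ring] at this
        rw [this] at hxu
        exact hx hxu
      · filter_upwards [Ioo_mem_nhdsLT (show V - δ < V by linarith)] with u hu hcl
        have := hoth (V - u) (by linarith [hu.2]) (by linarith [hu.1])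
        rw [show V + -1 * (V - u) = u by ring] at this
        exact this (sub_of_closure h hcl)

theorem nd_ne {a b c d e f : Fin 6} (h : [a, b, c, d, e, f].Nodup) :
    (a ≠ b ∧ a ≠ c ∧ a ≠ d ∧ a ≠ e ∧ a ≠ f) ∧ (b ≠ c ∧ b ≠ d ∧ b ≠ e ∧ b ≠ f) ∧
    (c ≠ d ∧ c ≠ e ∧ c ≠ f) ∧ (d ≠ e ∧ d ≠ f) ∧ e ≠ f := by
  simp only [List.nodup_cons, List.mem_cons, List.not_mem_nil, or_false, not_or, List.nodup_nil,
    and_true, not_false_eq_true] at h
  exact h

/-- a clean end of type `e | ab` -/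
theorem end02 (C : Ctr U T z a b c d e f) {V : ℝ} (hT : T (pt z V) = {a, b, e})
    (hc : Cln T z (pt z V)) : End (Xs T z a b c d e f) 0 2 V := by
  obtain ⟨⟨ab, ac, ad, ae, af⟩, ⟨bc, bd, be, bf⟩, ⟨cd, ce, cf⟩, ⟨de, df⟩, ef⟩ := nd_ne C.nd
  have hP : T z ∩ T (pt z V) = {a, b} := by
    rw [C.pal, hT]
    ext i
    simp only [mem_inter_iff, mem_insert_iff, mem_singleton_iff]
    constructor
    · rintro ⟨h1, h2⟩
      rcases h2 with rfl | rfl | rfl
      · exact Or.inl rfl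
      · exact Or.inr rfl
      · rcases h1 with h1 | h1 | h1 | h1
        exacts [Or.inl h1, Or.inr h1, absurd h1 (ce.symm), absurd h1 (de.symm)]
    · rintro (rfl | rfl)
      · exact ⟨Or.inl rfl, Or.inl rfl⟩
      · exact ⟨Or.inr (Or.inl rfl), Or.inr (Or.inl rfl)⟩
  obtain ⟨h1, h2⟩ := sides C.irr (Set.ncard_pair ab) hP
    (x := e) (by simp only [mem_insert_iff, mem_singleton_iff, not_or]; exact ⟨ae.symm, be.symm⟩) hc
  have m2 : V ∈ Xs T z a b c d e f 2 := h1
  have m0 : V ∈ Xs T z a b c d e f 0 := ⟨dist_pt z V, by rw [hT]; simp⟩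
  have only : ∀ l, V ∈ Xs T z a b c d e f l → l = 0 ∨ l = 2 := by
    intro l hl
    have k := Lt_col C.irr hl
    rw [hT] at k
    fin_cases l
    · exact Or.inl rfl
    · have := k (show f ∈ _ from rfl)
      simp only [mem_insert_iff, mem_singleton_iff] at this
      rcases this with h | h | h
      exacts [absurd h af.symm, absurd h bf.symm, absurd h ef.symm]
    · exact Or.inr rfl
    · have := k (show c ∈ _ from Or.inl rfl)
      simp only [mem_insert_iff, mem_singleton_iff] at this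
      rcases this with h | h | h
      exacts [absurd h ac.symm, absurd h bc.symm, absurd h ce]
  rcases h2 with ⟨g1, g2⟩ | ⟨g1, g2⟩
  · right
    refine ⟨m2, m0, fun l hl => (only l hl).symm, ?_, g2⟩
    filter_upwards [g1] with u hu hu2
    exact hu hu2.2
  · left
    refine ⟨m0, m2, only, g2, ?_⟩
    filter_upwards [g1] with u hu hu2
    exact hu hu2.2

/-- a clean end of type `f | cd` -/
theorem end13 (C : Ctr U T z a b c d e f) {V : ℝ} (hT : T (pt z V) = {c, d, f})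
    (hc : Cln T z (pt z V)) : End (Xs T z a b c d e f) 1 3 V := by
  obtain ⟨⟨ab, ac, ad, ae, af⟩, ⟨bc, bd, be, bf⟩, ⟨cd, ce, cf⟩, ⟨de, df⟩, ef⟩ := nd_ne C.nd
  have hP : T z ∩ T (pt z V) = {c, d} := by
    rw [C.pal, hT]
    ext i
    simp only [mem_inter_iff, mem_insert_iff, mem_singleton_iff]
    constructor
    · rintro ⟨h1, h2⟩
      rcases h2 with rfl | rfl | rfl
      · exact Or.inl rfl
      · exact Or.inr rfl
      · rcases h1 with h1 | h1 | h1 | h1
        exacts [absurd h1 af.symm, absurd h1 bf.symm, Or.inl h1, Or.inr h1]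
    · rintro (rfl | rfl)
      · exact ⟨Or.inr (Or.inr (Or.inl rfl)), Or.inl rfl⟩
      · exact ⟨Or.inr (Or.inr (Or.inr rfl)), Or.inr (Or.inl rfl)⟩
  obtain ⟨h1, h2⟩ := sides C.irr (Set.ncard_pair cd) hP
    (x := f) (by simp only [mem_insert_iff, mem_singleton_iff, not_or]; exact ⟨cf.symm, df.symm⟩) hc
  have m3 : V ∈ Xs T z a b c d e f 3 := h1
  have m1 : V ∈ Xs T z a b c d e f 1 := ⟨dist_pt z V, by rw [hT]; simp⟩
  have only : ∀ l, V ∈ Xs T z a b c d e f l → l = 1 ∨ l = 3 := by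
    intro l hl
    have k := Lt_col C.irr hl
    rw [hT] at k
    fin_cases l
    · have := k (show e ∈ _ from rfl)
      simp only [mem_insert_iff, mem_singleton_iff] at this
      rcases this with h | h | h
      exacts [absurd h ce.symm, absurd h de.symm, absurd h ef]
    · exact Or.inl rfl
    · have := k (show a ∈ _ from Or.inl rfl)
      simp only [mem_insert_iff, mem_singleton_iff] at this
      rcases this with h | h | h
      exacts [absurd h ac, absurd h ad, absurd h af]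
    · exact Or.inr rfl
  rcases h2 with ⟨g1, g2⟩ | ⟨g1, g2⟩
  · right
    refine ⟨m3, m1, fun l hl => (only l hl).symm, ?_, g2⟩
    filter_upwards [g1] with u hu hu2
    exact hu hu2.2
  · left
    refine ⟨m1, m3, only, g2, ?_⟩
    filter_upwards [g1] with u hu hu2
    exact hu hu2.2

variable {X : Set (Fin 6)} {v q q' : ℂ}

/-- names of the six colours at a centre with ends of complementary types -/
theorem exists_ctr (h : Irr U T) (hX : X.ncard = 3)
    (hpairs : ∀ y, dist y z = 1 → (∀ᶠ q in 𝓝[sphere z 1] y, T q = T y) → T y ⊆ T z →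
      T y = T z ∩ X ∨ T y = T z ∩ Xᶜ)
    (hv : En T X z v) (hq : En T Xᶜ z q) :
    ∃ a b c d e f, Ctr U T z a b c d e f ∧ X = {a, b, e} ∧ Xᶜ = {c, d, f} := by
  have hX' : Xᶜ.ncard = 3 := ncard_compl_three hX
  obtain ⟨e, he, hXe⟩ := exists_third hX (P := T z ∩ X) inter_subset_right hv.2.2.1
  obtain ⟨f, hf, hXf⟩ := exists_third hX' (P := T z ∩ Xᶜ) inter_subset_right hq.2.2.1
  obtain ⟨a, b, hab, hP⟩ := Set.ncard_eq_two.1 hv.2.2.1
  obtain ⟨c, d, hcd, hQ⟩ := Set.ncard_eq_two.1 hq.2.2.1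
  have hXabe : X = {a, b, e} := by
    rw [hXe, hP]; ext i; simp only [mem_insert_iff, mem_singleton_iff]; tauto
  have hXcdf : Xᶜ = {c, d, f} := by
    rw [hXf, hQ]; ext i; simp only [mem_insert_iff, mem_singleton_iff]; tauto
  have ma : a ∈ X := by rw [hXabe]; simp
  have mb : b ∈ X := by rw [hXabe]; simp
  have me : e ∈ X := by rw [hXabe]; simp
  have mc : c ∈ Xᶜ := by rw [hXcdf]; simp
  have md : d ∈ Xᶜ := by rw [hXcdf]; simp
  have mf : f ∈ Xᶜ := by rw [hXcdf]; simp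
  have dj : ∀ {i j : Fin 6}, i ∈ X → j ∈ Xᶜ → i ≠ j := by
    rintro i j hi hj rfl; exact hj hi
  have ae : a ≠ e := by
    rintro rfl; exact he (by rw [hP]; simp)
  have be : b ≠ e := by
    rintro rfl; exact he (by rw [hP]; simp)
  have cf : c ≠ f := by
    rintro rfl; exact hf (by rw [hQ]; simp)
  have df : d ≠ f := by
    rintro rfl; exact hf (by rw [hQ]; simp)
  refine ⟨a, b, c, d, e, f, ⟨h, ?_, ?_, ?_⟩, hXabe, hXcdf⟩
  · have : T z = (T z ∩ X) ∪ (T z ∩ Xᶜ) := by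
      rw [← inter_union_distrib_left, union_compl_self, inter_univ]
    rw [this, hP, hQ]
    ext i; simp only [mem_union, mem_insert_iff, mem_singleton_iff]; tauto
  · simp only [List.nodup_cons, List.mem_cons, List.not_mem_nil, or_false, not_or, List.nodup_nil,
      and_true, not_false_eq_true]
    exact ⟨⟨hab, dj ma mc, dj ma md, ae, dj ma mf⟩, ⟨dj mb mc, dj mb md, be, dj mb mf⟩,
      ⟨hcd, (dj me mc).symm, cf⟩, ⟨(dj me md).symm, df⟩, dj me mf⟩
  · intro y hy hy1 hy2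
    rw [← hP, ← hQ]; exact hpairs y hy hy1 hy2

/-- a clean point is an end -/
theorem en_of_cln (hv : En T X z v) {v' : ℂ} (hd : dist v' z = 1) (hT : T v' = X)
    (hc : Cln T z v') : En T X z v' := by
  obtain ⟨o, ε, ho, hε, h1, -⟩ := hc
  refine ⟨hT, hv.2.1, hv.2.2.1, hd, o, ε, ho, hε, fun t ht => ?_⟩
  rw [h1 t ht, hT]

/-- the common data -/
theorem marks (C : Ctr U T z a b c d e f) (h3 : ∀ y, dist y z = 1 → (T y).ncard ≤ 3)
    (hX : X = {a, b, e}) (hcl : ∀ v, dist v z = 1 → T v = X → Cln T z v) {V : ℝ}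
    (hv : En T X z (pt z V)) (hu : ∀ v', En T X z v' → v' = pt z V) (u : ℝ)
    (h0 : u ∈ Xs T z a b c d e f 0) (h2 : u ∈ Xs T z a b c d e f 2) : ∃ n : ℤ, u = V + 6 * n := by
  obtain ⟨⟨ab, ac, ad, ae, af⟩, ⟨bc, bd, be, bf⟩, ⟨cd, ce, cf⟩, ⟨de, df⟩, ef⟩ := nd_ne C.nd
  have k2 := sub_of_closure C.irr (P := {a, b}) h2
  have hT : T (pt z u) = X := by
    symm
    refine Set.eq_of_subset_of_ncard_le ?_ ?_ (Set.toFinite _)
    · rw [hX]
      rintro i (rfl | rfl | rfl)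
      · exact k2 (Or.inl rfl)
      · exact k2 (Or.inr rfl)
      · exact h0.2
    · have : X.ncard = 3 := by
        rw [hX]; exact Set.ncard_eq_three.2 ⟨a, b, e, ab, ae, be, rfl⟩
      rw [this]; exact h3 _ (dist_pt z u)
  exact pt_eq (hu _ (en_of_cln hv (dist_pt z u) hT (hcl _ (dist_pt z u) hT)))

/-- the common data, second type -/
theorem marks' (C : Ctr U T z a b c d e f) (h3 : ∀ y, dist y z = 1 → (T y).ncard ≤ 3)
    (hX : Xᶜ = {c, d, f}) (hcl : ∀ v, dist v z = 1 → T v = Xᶜ → Cln T z v)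
    (hq : En T Xᶜ z q) (u : ℝ) (h1 : u ∈ Xs T z a b c d e f 1) (h2 : u ∈ Xs T z a b c d e f 3) :
    En T Xᶜ z (pt z u) := by
  obtain ⟨⟨ab, ac, ad, ae, af⟩, ⟨bc, bd, be, bf⟩, ⟨cd, ce, cf⟩, ⟨de, df⟩, ef⟩ := nd_ne C.nd
  have k2 := sub_of_closure C.irr (P := {c, d}) h2
  have hT : T (pt z u) = Xᶜ := by
    symm
    refine Set.eq_of_subset_of_ncard_le ?_ ?_ (Set.toFinite _)
    · rw [hX]
      rintro i (rfl | rfl | rfl)
      · exact k2 (Or.inl rfl)
      · exact k2 (Or.inr rfl)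
      · exact h1.2
    · have : Xᶜ.ncard = 3 := by
        rw [hX]; exact Set.ncard_eq_three.2 ⟨c, d, f, cd, cf, df, rfl⟩
      rw [this]; exact h3 _ (dist_pt z u)
  exact en_of_cln hq (dist_pt z u) hT (hcl _ (dist_pt z u) hT)

/-- **L2** for ends: not exactly one end of each of two complementary types. -/
theorem L2_of (h : Irr U T) (hX : X.ncard = 3) (h3 : ∀ y, dist y z = 1 → (T y).ncard ≤ 3)
    (hpairs : ∀ y, dist y z = 1 → (∀ᶠ q in 𝓝[sphere z 1] y, T q = T y) → T y ⊆ T z →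
      T y = T z ∩ X ∨ T y = T z ∩ Xᶜ)
    (hcl : ∀ v, dist v z = 1 → T v = X ∨ T v = Xᶜ → Cln T z v)
    (hv : En T X z v) (hq : En T Xᶜ z q) :
    (∃ v', v' ≠ v ∧ En T X z v') ∨ ∃ q', q' ≠ q ∧ En T Xᶜ z q' := by
  by_contra hcon
  push Not at hcon
  obtain ⟨hu, hu'⟩ := hcon
  obtain ⟨a, b, c, d, e, f, C, hXabe, hXcdf⟩ := exists_ctr h hX hpairs hv hq
  obtain ⟨V, rfl⟩ := exists_pt hv.2.2.2.1
  obtain ⟨Q, rfl⟩ := exists_pt hq.2.2.2.1
  refine (rawT C h3).L2 (V := V) (Q := Q) (end02 C (by rw [hv.1, hXabe]) (hcl _ hv.2.2.2.1 (Or.inl hv.1)))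
    (end13 C (by rw [hq.1, hXcdf]) (hcl _ hq.2.2.2.1 (Or.inr hq.1))) ?_ ?_
  · intro u h0 h2
    exact marks C h3 hXabe (fun v h4 h5 => hcl v h4 (Or.inl h5)) hv
      (fun v' hv' => by by_contra hne; exact hu v' hne hv') u h0 h2
  · intro u h1 h4
    have := marks' C h3 hXcdf (fun v h4 h5 => hcl v h4 (Or.inr h5)) hq u h1 h4
    refine pt_eq (z := z) ?_
    by_contra hne
    exact hu' _ hne this

theorem tri_id (A B C : ℝ) :
    (Real.sin (C - B) : ℂ) * cis A + (Real.sin (A - C) : ℂ) * cis B +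
      (Real.sin (B - A) : ℂ) * cis C = 0 := by
  have hc : ∀ t, cis t = (Real.cos t : ℂ) + (Real.sin t : ℂ) * Complex.I := by
    intro t
    unfold cis
    rw [Complex.exp_mul_I, Complex.ofReal_cos, Complex.ofReal_sin]
  rw [hc, hc, hc, Real.sin_sub, Real.sin_sub, Real.sin_sub]
  push_cast
  ring

/-- **L3** for ends: the centre is in the open triangle of the three ends. -/
theorem L3_of (h : Irr U T) (hX : X.ncard = 3) (h3 : ∀ y, dist y z = 1 → (T y).ncard ≤ 3)
    (hpairs : ∀ y, dist y z = 1 → (∀ᶠ q in 𝓝[sphere z 1] y, T q = T y) → T y ⊆ T z →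
      T y = T z ∩ X ∨ T y = T z ∩ Xᶜ)
    (hcl : ∀ v, dist v z = 1 → T v = X ∨ T v = Xᶜ → Cln T z v)
    (hv : En T X z v) (hq : En T Xᶜ z q) (hq' : En T Xᶜ z q') (hne : q ≠ q')
    (hu : ∀ v', En T X z v' → v' = v) (hu' : ∀ p, En T Xᶜ z p → p = q ∨ p = q') :
    ∃ α β γ : ℝ, 0 < α ∧ 0 < β ∧ 0 < γ ∧
      (α : ℂ) * (v - z) + (β : ℂ) * (q - z) + (γ : ℂ) * (q' - z) = 0 := by
  obtain ⟨a, b, c, d, e, f, C, hXabe, hXcdf⟩ := exists_ctr h hX hpairs hv hq
  have hvq : v ≠ q := hv.ne hX hq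
  have hvq' : v ≠ q' := hv.ne hX hq'
  obtain ⟨V, rfl⟩ := exists_pt hv.2.2.2.1
  -- representatives
  have rep : ∀ {p : ℂ}, dist p z = 1 → pt z V ≠ p → ∃ Q, p = pt z Q ∧ V < Q ∧ Q < V + 6 := by
    intro p hp hVp
    obtain ⟨Q, hQ⟩ := exists_pt hp
    have hper : ∀ n : ℤ, ∀ u, pt z (u + 6 * n) = pt z u := by
      intro n
      induction n with
      | zero => intro u; simp
      | succ i ih =>
        intro u
        have e1 : u + 6 * (((i : ℤ) + 1 : ℤ) : ℝ) = (u + 6 * ((i : ℤ) : ℝ)) + 6 := by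
          push_cast; ring
        rw [e1, pt_six, ih]
      | pred i ih =>
        intro u
        have e1 : u + 6 * ((-(i : ℤ) - 1 : ℤ) : ℝ) + 6 = u + 6 * ((-(i : ℤ) : ℤ) : ℝ) := by
          push_cast; ring
        rw [← pt_six, e1, ih]
    have h1 := Int.floor_le ((Q - V) / 6)
    have h2 := Int.lt_floor_add_one ((Q - V) / 6)
    have h4 : p = pt z (Q + 6 * ((-⌊(Q - V) / 6⌋ : ℤ) : ℝ)) := by rw [hper, hQ]
    refine ⟨Q + 6 * ((-⌊(Q - V) / 6⌋ : ℤ) : ℝ), h4, ?_, ?_⟩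
    · refine lt_of_le_of_ne ?_ ?_
      · push_cast; linarith
      · intro h5
        exact hVp (by rw [h4, ← h5])
    · push_cast; linarith
  have main : ∀ {Q Q' : ℝ}, V < Q → Q < Q' → Q' < V + 6 → En T Xᶜ z (pt z Q) →
      En T Xᶜ z (pt z Q') → (∀ p, En T Xᶜ z p → p = pt z Q ∨ p = pt z Q') →
      ∃ α β γ : ℝ, 0 < α ∧ 0 < β ∧ 0 < γ ∧ (α : ℂ) * (pt z V - z) + (β : ℂ) * (pt z Q - z) +
        (γ : ℂ) * (pt z Q' - z) = 0 := by
    intro Q Q' hVQ hQQ' hQ6 hEQ hEQ' hun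
    obtain ⟨k1, k2, k4⟩ := (rawT C h3).L3 (V := V) (Q := Q) (Q' := Q')
      (end02 C (by rw [hv.1, hXabe]) (hcl _ hv.2.2.2.1 (Or.inl hv.1)))
      (fun u h0 h2 => marks C h3 hXabe (fun v h4 h5 => hcl v h4 (Or.inl h5)) hv hu u h0 h2)
      (end13 C (by rw [hEQ.1, hXcdf]) (hcl _ hEQ.2.2.2.1 (Or.inr hEQ.1)))
      (end13 C (by rw [hEQ'.1, hXcdf]) (hcl _ hEQ'.2.2.2.1 (Or.inr hEQ'.1))) hVQ hQQ' hQ6
      (fun u h1 h4 => by
        have := marks' C h3 hXcdf (fun v h4 h5 => hcl v h4 (Or.inr h5)) hEQ u h1 h4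
        rcases hun _ this with h5 | h5
        · obtain ⟨n, hn⟩ := pt_eq h5
          exact ⟨n, Or.inl hn⟩
        · obtain ⟨n, hn⟩ := pt_eq h5
          exact ⟨n, Or.inr hn⟩)
    have hpi := Real.pi_pos
    refine ⟨Real.sin (Q' * (Real.pi / 3) - Q * (Real.pi / 3)),
      Real.sin (V * (Real.pi / 3) - Q' * (Real.pi / 3)),
      Real.sin (Q * (Real.pi / 3) - V * (Real.pi / 3)), ?_, ?_, ?_, ?_⟩
    · apply Real.sin_pos_of_pos_of_lt_pi
      · nlinarith
      · nlinarith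
    · have e1 : V * (Real.pi / 3) - Q' * (Real.pi / 3) =
          (V + 6 - Q') * (Real.pi / 3) - 2 * Real.pi := by ring
      rw [e1, Real.sin_sub_two_pi]
      apply Real.sin_pos_of_pos_of_lt_pi
      · nlinarith
      · nlinarith
    · apply Real.sin_pos_of_pos_of_lt_pi
      · nlinarith
      · nlinarith
    · have := tri_id (V * (Real.pi / 3)) (Q * (Real.pi / 3)) (Q' * (Real.pi / 3))
      unfold pt
      rw [add_sub_cancel_left, add_sub_cancel_left, add_sub_cancel_left]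
      exact this
  obtain ⟨Q, hQ, hQ1, hQ2⟩ := rep hq.2.2.2.1 hvq
  obtain ⟨Q', hQ', hQ1', hQ2'⟩ := rep hq'.2.2.2.1 hvq'
  subst hQ
  subst hQ'
  rcases lt_trichotomy Q Q' with hlt | heq | hlt
  · exact main hQ1 hlt hQ2' hq hq' hu'
  · exact absurd (by rw [heq]) hne
  · obtain ⟨α, β, γ, h1, h2, h4, h5⟩ := main hQ1' hlt hQ2 hq' hq (fun p hp => (hu' p hp).symm)
    exact ⟨α, γ, β, h1, h4, h2, by linear_combination h5⟩

/-- **L1** for the colours: `e` meets one of the two pairs. -/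
theorem L1e_of (C : Ctr U T z a b c d e f) (h3 : ∀ y, dist y z = 1 → (T y).ncard ≤ 3) :
    ∃ y, dist y z = 1 ∧ (T y = {a, b, e} ∨ T y = {c, d, e}) := by
  obtain ⟨⟨ab, ac, ad, ae, af⟩, ⟨bc, bd, be, bf⟩, ⟨cd, ce, cf⟩, ⟨de, df⟩, ef⟩ := nd_ne C.nd
  obtain ⟨u, h0, h2 | h2⟩ := (rawT C h3).L1e
  · have k2 := sub_of_closure C.irr (P := {a, b}) h2
    refine ⟨pt z u, dist_pt z u, Or.inl (Eq.symm (Set.eq_of_subset_of_ncard_le ?_ ?_
      (Set.toFinite _)))⟩
    · rintro i (rfl | rfl | rfl)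
      · exact k2 (Or.inl rfl)
      · exact k2 (Or.inr rfl)
      · exact h0.2
    · rw [Set.ncard_eq_three.2 ⟨a, b, e, ab, ae, be, rfl⟩]; exact h3 _ (dist_pt z u)
  · have k2 := sub_of_closure C.irr (P := {c, d}) h2
    refine ⟨pt z u, dist_pt z u, Or.inr (Eq.symm (Set.eq_of_subset_of_ncard_le ?_ ?_
      (Set.toFinite _)))⟩
    · rintro i (rfl | rfl | rfl)
      · exact k2 (Or.inl rfl)
      · exact k2 (Or.inr rfl)
      · exact h0.2
    · rw [Set.ncard_eq_three.2 ⟨c, d, e, cd, ce, de, rfl⟩]; exact h3 _ (dist_pt z u)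

end Vale.Agent.P032.S5.H349
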