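import Vale.Agent.P032.S5.H360.Silent

/-!
# P032: a blocked line

`Irr.block` : the colours of the unit circle about a point `u` of `U x` near a partner `p` of `z`
cannot change from `c` to `d` at a line with the palettes `{r, o, d}` and `{s, o, c}`.
-/

open Set Filter Topology Metric

noncomputable section

namespace Vale.Agent.P032.Six

variable {k : ℕ} {U : Fin k → Set ℂ} {T : ℂ → Set (Fin k)}

theorem ncard_pair_le349 (a b : Fin k) : ({a, b} : Set (Fin k)).ncard ≤ 2 := by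
  have h1 := Set.ncard_insert_le a ({b} : Set (Fin k))
  rw [Set.ncard_singleton] at h1
  exact h1

namespace Irr

/-- a foot of `w` on the unit circle about `z` -/
theorem foot_notMem (h : Irr U T) {z n : ℂ} (hn : ‖n‖ = 1) {s : ℝ} (hs : s ^ 2 = 1) {t ρ : ℝ}
    (ht : t ≠ 0) (hreg : t ^ 2 / 4 ≤ 1 / (1 + ρ ^ 2))
    (hlt : dist (z + t * ((Complex.I + ρ) * n)) z < 1) {P : Set (Fin k)}
    (hJ : ∀ᶠ q in 𝓝[sphere z 1] (z + slv s n t ρ), P ⊆ Pal U q) {i : Fin k} (hi : i ∈ P) :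
    i ∉ Pal U (z + t * ((Complex.I + ρ) * n)) := by
  have hI : (Complex.I + ρ) * n ≠ 0 := by
    refine mul_ne_zero ?_ ?_
    · intro h0
      have := congrArg Complex.im h0
      simp at this
    · intro h0
      rw [h0, norm_zero] at hn
      exact zero_ne_one hn
  refine h.mx.sweep_notMem (z := z) (q := z + slv s n t ρ) ?_ hJ ?_ ?_ ?_ hi
  · rw [dist_eq_norm, add_sub_cancel_left]
    exact norm_slv hs hn hreg
  · rw [dist_eq_norm]
    have e : z + t * ((Complex.I + ρ) * n) - (z + slv s n t ρ) =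
        (t : ℂ) * ((Complex.I + (ρ : ℝ)) * n) - slv s n t ρ := by
      ring
    rw [e]
    exact norm_slv_sub hs hn hreg
  · intro h0
    have h1 : (t : ℂ) * ((Complex.I + ρ) * n) = 0 := by linear_combination -h0
    rcases mul_eq_zero.1 h1 with h2 | h2
    · exact ht (by exact_mod_cast h2)
    · exact hI h2
  · intro h5
    have h6 : z + t * ((Complex.I + ρ) * n) - z = 2 * slv s n t ρ := by linear_combination h5
    have h7 : dist (z + t * ((Complex.I + ρ) * n)) z = 2 := by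
      rw [dist_eq_norm, h6, norm_mul, norm_slv hs hn hreg]; simp
    linarith

theorem tendsto_slv_line {z n : ℂ} (hn : ‖n‖ = 1) {s : ℝ} (hs : s ^ 2 = 1) (ρ : ℝ) :
    Tendsto (fun t : ℝ => z + slv s n t ρ) (𝓝 0) (𝓝[sphere z 1] (z + slv s n 0 ρ)) := by
  have hc : Continuous fun t : ℝ => z + slv s n t ρ := by
    have h1 := continuous_slv s n
    have h2 : Continuous fun t : ℝ => ((t, ρ) : ℝ × ℝ) := by fun_prop
    exact continuous_const.add (h1.comp h2)
  refine tendsto_nhdsWithin_iff.2 ⟨hc.tendsto 0, ?_⟩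
  have hreg : ∀ᶠ t : ℝ in 𝓝 0, t ^ 2 / 4 ≤ 1 / (1 + ρ ^ 2) := by
    have h1 : Continuous fun t : ℝ => t ^ 2 / 4 := by fun_prop
    have h3 := h1.tendsto 0
    have h4 : (0 : ℝ) ^ 2 / 4 < 1 / (1 + ρ ^ 2) := by
      have : (0 : ℝ) < 1 / (1 + ρ ^ 2) := by positivity
      simpa using this
    exact (h3.eventually_lt (tendsto_const_nhds (x := (1 / (1 + ρ ^ 2) : ℝ))) h4).mono
      fun t ht => ht.le
  filter_upwards [hreg] with t ht
  rw [mem_sphere, dist_eq_norm, add_sub_cancel_left]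
  exact norm_slv hs hn ht

theorem tendsto_slv_cone {z n : ℂ} (hn : ‖n‖ = 1) {s : ℝ} (hs : s ^ 2 = 1) :
    Tendsto (fun a : ℝ × ℝ => z + slv s n a.1 a.2) (𝓝 (0, 0)) (𝓝[sphere z 1] (z + s * n)) := by
  have hc : Continuous fun a : ℝ × ℝ => z + slv s n a.1 a.2 :=
    continuous_const.add (continuous_slv s n)
  refine tendsto_nhdsWithin_iff.2 ⟨?_, ?_⟩
  · have := hc.tendsto (0, 0)
    simp only [slv_zero] at this
    exact this
  have hreg : ∀ᶠ a : ℝ × ℝ in 𝓝 (0, 0), a.1 ^ 2 / 4 ≤ 1 / (1 + a.2 ^ 2) := by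
    have h1 : Continuous fun a : ℝ × ℝ => a.1 ^ 2 / 4 := by fun_prop
    have h2 : Continuous fun a : ℝ × ℝ => 1 / (1 + a.2 ^ 2) :=
      continuous_const.div (by fun_prop) fun a => by positivity
    exact ((h1.tendsto (0, 0)).eventually_lt (h2.tendsto (0, 0)) (by norm_num)).mono
      fun a ha => ha.le
  filter_upwards [hreg] with a ha
  rw [mem_sphere, dist_eq_norm, add_sub_cancel_left]
  exact norm_slv hs hn ha

/-- a pair on the circle is exact nearby -/
theorem pair_near (h : Irr U T) {z q : ℂ} (h2 : ∀ q, dist q z = 1 → 2 ≤ (T q).ncard)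
    {a b : Fin k} (hq : T q ⊆ {a, b}) :
    ∀ᶠ q' in 𝓝[sphere z 1] q, ({a, b} : Set (Fin k)) ⊆ Pal U q' := by
  filter_upwards [mem_nhdsWithin_of_mem_nhds (h.nhd q), self_mem_nhdsWithin] with q' h1 h3
  have h4 : T q' ⊆ {a, b} := h1.trans hq
  have h5 := h2 q' h3
  have h6 : ({a, b} : Set (Fin k)).ncard ≤ 2 := ncard_pair_le349 a b
  have h7 : T q' = {a, b} := Set.eq_of_subset_of_ncard_le h4 (by omega) (Set.toFinite _)
  rw [← h7]
  exact h.sub q'

/-- the palettes near a triple with a core colour -/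
theorem three_cases (_h : Irr U T) {q : ℂ} {r o d : Fin k}
    (hs : T q ⊆ {r, o, d}) :
    T q ⊆ {r, o} ∨ T q ⊆ {r, d} ∨ (o ∈ T q ∧ d ∈ T q) := by
  by_cases ho : o ∈ T q
  · by_cases hd : d ∈ T q
    · exact Or.inr (Or.inr ⟨ho, hd⟩)
    · left
      intro i hi
      rcases hs hi with h1 | h1 | h1
      · exact Or.inl h1
      · exact Or.inr h1
      · exact absurd (h1 ▸ hi) hd
  · right; left
    intro i hi
    rcases hs hi with h1 | h1 | h1
    · exact Or.inl h1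
    · exact absurd (h1 ▸ hi) ho
    · exact Or.inr h1

/-- **Local rule.** In the cone about the line there is only one colour. -/
theorem cone_single (h : Irr U T) {z n : ℂ} (hn : ‖n‖ = 1) {x r s o c d : Fin k}
    (hK : ∀ j, j = x ∨ j = o ∨ j = r ∨ j = s ∨ j = c ∨ j = d)
    (h2 : ∀ q, dist q z = 1 → 2 ≤ (T q).ncard) (h3 : ∀ q, dist q z = 1 → (T q).ncard ≤ 3)
    (h1 : T (z + n) ⊆ {r, o, d}) (h4 : T (z - n) ⊆ {s, o, c})
    (hr : ∀ᶠ q in 𝓝[sphere z 1] (z + n), r ∈ T q) (hs : ∀ᶠ q in 𝓝[sphere z 1] (z - n), s ∈ T q)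
    (hcd : ∀ᶠ w in 𝓝 z, c ∈ T w → d ∈ T w → 4 ≤ (T w).ncard) :
    ∃ δ > 0, ∀ t ρ : ℝ, |t| < δ → t ≠ 0 → |ρ| < δ →
      x ∉ T (z + t * ((Complex.I + ρ) * n)) →
      (∀ i ∈ T (z + t * ((Complex.I + ρ) * n)), i = o ∨ i = c ∨ i = d) ∧
      ∀ i ∈ T (z + t * ((Complex.I + ρ) * n)), ∀ j ∈ T (z + t * ((Complex.I + ρ) * n)), i = j := by
  have e1 : z + ((1 : ℝ) : ℂ) * n = z + n := by push_cast; ring
  have e2 : z + ((-1 : ℝ) : ℂ) * n = z - n := by push_cast; ring
  have t1 := tendsto_slv_cone (z := z) hn (s := 1) (by norm_num)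
  have t2 := tendsto_slv_cone (z := z) hn (s := -1) (by norm_num)
  rw [e1] at t1
  rw [e2] at t2
  have hreg : ∀ᶠ a : ℝ × ℝ in 𝓝 (0, 0), a.1 ^ 2 / 4 ≤ 1 / (1 + a.2 ^ 2) := by
    have h1 : Continuous fun a : ℝ × ℝ => a.1 ^ 2 / 4 := by fun_prop
    have h2 : Continuous fun a : ℝ × ℝ => 1 / (1 + a.2 ^ 2) :=
      continuous_const.div (by fun_prop) fun a => by positivity
    exact ((h1.tendsto (0, 0)).eventually_lt (h2.tendsto (0, 0)) (by norm_num)).mono
      fun a ha => ha.le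
  let f : ℝ × ℝ → ℂ := fun a => z + a.1 * ((Complex.I + a.2) * n)
  have hf : Continuous f := by
    simp only [f]
    fun_prop
  have hf0 : f (0, 0) = z := by simp [f]
  have tf : Tendsto f (𝓝 (0, 0)) (𝓝 z) := by
    have := hf.tendsto (0, 0)
    rwa [hf0] at this
  have hfar : ∀ᶠ a : ℝ × ℝ in 𝓝 (0, 0), dist (f a) z < 1 := by
    have := (tf.dist (tendsto_const_nhds (x := z))).eventually_lt
      (tendsto_const_nhds (x := (1 : ℝ))) (by simp)
    exact this
  have hr' : ∀ᶠ a : ℝ × ℝ in 𝓝 (0, 0), T (z + slv 1 n a.1 a.2) ⊆ {r, o, d} ∧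
      r ∈ T (z + slv 1 n a.1 a.2) ∧
      ∀ᶠ q in 𝓝[sphere z 1] (z + slv 1 n a.1 a.2), r ∈ T q := by
    have g1 : ∀ᶠ q in 𝓝[sphere z 1] (z + n), T q ⊆ {r, o, d} := by
      filter_upwards [mem_nhdsWithin_of_mem_nhds (h.nhd (z + n))] with q hq
      exact hq.trans h1
    filter_upwards [t1.eventually g1, t1.eventually hr,
      t1.eventually (eventually_eventually_nhdsWithin.2 hr)] with a g2 g3 g4
    exact ⟨g2, g3, g4⟩
  have hs' : ∀ᶠ a : ℝ × ℝ in 𝓝 (0, 0), T (z + slv (-1) n a.1 a.2) ⊆ {s, o, c} ∧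
      s ∈ T (z + slv (-1) n a.1 a.2) ∧
      ∀ᶠ q in 𝓝[sphere z 1] (z + slv (-1) n a.1 a.2), s ∈ T q := by
    have g1 : ∀ᶠ q in 𝓝[sphere z 1] (z - n), T q ⊆ {s, o, c} := by
      filter_upwards [mem_nhdsWithin_of_mem_nhds (h.nhd (z - n))] with q hq
      exact hq.trans h4
    filter_upwards [t2.eventually g1, t2.eventually hs,
      t2.eventually (eventually_eventually_nhdsWithin.2 hs)] with a g2 g3 g4
    exact ⟨g2, g3, g4⟩
  obtain ⟨δ, hδ, hball⟩ := Metric.eventually_nhds_iff.1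
    (hreg.and (hfar.and (hr'.and (hs'.and (tf.eventually hcd)))))
  refine ⟨δ, hδ, fun t ρ ht ht0 hρ hx => ?_⟩
  have hmem : dist ((t, ρ) : ℝ × ℝ) (0, 0) < δ := by
    rw [Prod.dist_eq]
    simp only [Real.dist_eq, sub_zero]
    exact max_lt ht hρ
  obtain ⟨k1, k2, ⟨k3, k4, k5⟩, ⟨k6, k7, k8⟩, k9⟩ := hball hmem
  simp only [f] at k2 k9
  simp only at k1 k3 k4 k5 k6 k7 k8
  set w : ℂ := z + t * ((Complex.I + ρ) * n) with hw
  have hq1 : dist (z + slv 1 n t ρ) z = 1 := by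
    rw [dist_eq_norm, add_sub_cancel_left]; exact norm_slv (by norm_num) hn k1
  have hq2 : dist (z + slv (-1) n t ρ) z = 1 := by
    rw [dist_eq_norm, add_sub_cancel_left]; exact norm_slv (by norm_num) hn k1
  have hw1 : dist w (z + slv 1 n t ρ) = 1 := by
    rw [dist_eq_norm, hw]
    have e : z + t * ((Complex.I + ρ) * n) - (z + slv 1 n t ρ) =
        (t : ℂ) * ((Complex.I + (ρ : ℝ)) * n) - slv 1 n t ρ := by
      ring
    rw [e]
    exact norm_slv_sub (by norm_num) hn k1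
  have hw2 : dist w (z + slv (-1) n t ρ) = 1 := by
    rw [dist_eq_norm, hw]
    have e : z + t * ((Complex.I + ρ) * n) - (z + slv (-1) n t ρ) =
        (t : ℂ) * ((Complex.I + (ρ : ℝ)) * n) - slv (-1) n t ρ := by
      ring
    rw [e]
    exact norm_slv_sub (by norm_num) hn k1
  have hrw : r ∉ T w := fun hc => h.foot_notMem (s := 1) hn (by norm_num) ht0 k1 k2
    (P := {r}) (k5.mono fun q hq => by rintro i rfl; exact h.sub q hq) rfl (h.sub w hc)
  have hsw : s ∉ T w := fun hc => h.foot_notMem (s := -1) hn (by norm_num) ht0 k1 k2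
    (P := {s}) (k8.mono fun q hq => by rintro i rfl; exact h.sub q hq) rfl (h.sub w hc)
  have hsub : ∀ i ∈ T w, i = o ∨ i = c ∨ i = d := by
    intro i hi
    rcases hK i with rfl | rfl | rfl | rfl | rfl | rfl
    · exact absurd hi hx
    · exact Or.inl rfl
    · exact absurd hi hrw
    · exact absurd hi hsw
    · exact Or.inr (Or.inl rfl)
    · exact Or.inr (Or.inr rfl)
  have hncd : ¬ (c ∈ T w ∧ d ∈ T w) := by
    rintro ⟨hc, hd⟩
    have h5 := k9 hc hd
    have h6 : T w ⊆ {o, c, d} := fun i hi => hsub i hi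
    have h7 := Set.ncard_le_ncard h6 (Set.toFinite _)
    have h8 : ({o, c, d} : Set (Fin k)).ncard ≤ 3 := by
      refine (Set.ncard_insert_le _ _).trans ?_
      have := ncard_pair_le349 c d
      omega
    omega
  have hod : ¬ (o ∈ T w ∧ d ∈ T w) := by
    rintro ⟨ho, hd⟩
    rcases h.three_cases k3 with g | g | ⟨g1, g2⟩
    · exact h.foot_notMem (s := 1) hn (by norm_num) ht0 k1 k2 (P := {r, o})
        (h.pair_near h2 g) (by simp) (h.sub w ho)
    · exact h.foot_notMem (s := 1) hn (by norm_num) ht0 k1 k2 (P := {r, d})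
        (h.pair_near h2 g) (by simp) (h.sub w hd)
    · obtain ⟨i, hi1, hi2⟩ := h.not_sub' hw1 (h3 _ hq1)
      rcases hsub i hi1 with rfl | rfl | rfl
      · exact hi2 g1
      · exact hncd ⟨hi1, hd⟩
      · exact hi2 g2
  have hoc : ¬ (o ∈ T w ∧ c ∈ T w) := by
    rintro ⟨ho, hc⟩
    rcases h.three_cases k6 with g | g | ⟨g1, g2⟩
    · exact h.foot_notMem (s := -1) hn (by norm_num) ht0 k1 k2 (P := {s, o})
        (h.pair_near h2 g) (by simp) (h.sub w ho)
    · exact h.foot_notMem (s := -1) hn (by norm_num) ht0 k1 k2 (P := {s, c})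
        (h.pair_near h2 g) (by simp) (h.sub w hc)
    · obtain ⟨i, hi1, hi2⟩ := h.not_sub' hw2 (h3 _ hq2)
      rcases hsub i hi1 with rfl | rfl | rfl
      · exact hi2 g1
      · exact hi2 g2
      · exact hncd ⟨hc, hi1⟩
  refine ⟨hsub, fun i hi j hj => ?_⟩
  rcases hsub i hi with rfl | rfl | rfl <;> rcases hsub j hj with rfl | rfl | rfl
  · rfl
  · exact absurd ⟨hi, hj⟩ hoc
  · exact absurd ⟨hi, hj⟩ hod
  · exact absurd ⟨hj, hi⟩ hoc
  · rfl
  · exact absurd ⟨hi, hj⟩ hncd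
  · exact absurd ⟨hj, hi⟩ hod
  · exact absurd ⟨hj, hi⟩ hncd
  · rfl

end Irr

end Vale.Agent.P032.Six
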