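import Vale.Agent.P032.S5.H349.Block

/-!
# P032: a blocked line, second part
-/

open Set Filter Topology Metric

noncomputable section

namespace Vale.Agent.P032.Six

variable {k : ℕ} {U : Fin k → Set ℂ} {T : ℂ → Set (Fin k)}

/-- the unit circle about a point near `p` in the cone about the line -/
theorem arc_in_cone {z p n : ℂ} (hn : ‖n‖ = 1) (hp : dist p z = 1)
    (hoff : dt360 (Complex.I * n) (z - p) ≠ 0) :
    ∃ δ0 > 0, ∀ δ > 0, ∀ᶠ u in 𝓝 p, dist z u ≠ 1 → ∃ τ : ℝ → ℝ,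
      ContinuousOn τ (Icc (-δ0) δ0) ∧ ∀ ρ ∈ Icc (-δ0) δ0, τ ρ ≠ 0 ∧ |τ ρ| < δ ∧
        dist (z + τ ρ * ((Complex.I + ρ) * n)) u = 1 := by
  set m0 := dt360 (Complex.I * n) (z - p) with hm0
  have hnn : n.re ^ 2 + n.im ^ 2 = 1 := by
    have h3 : ‖n‖ ^ 2 = 1 := by rw [hn]; norm_num
    rw [Complex.sq_norm, Complex.normSq_apply] at h3
    linarith
  have hz1 : (z - p).re ^ 2 + (z - p).im ^ 2 = 1 := by
    have h3 : ‖z - p‖ ^ 2 = 1 := by rw [← dist_eq_norm, dist_comm, hp]; norm_num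
    rw [Complex.sq_norm, Complex.normSq_apply] at h3
    linarith
  have ha : 0 < |m0| := abs_pos.2 hoff
  have hm1 : |m0| ≤ 1 := by
    rw [abs_le_one_iff_mul_self_le_one, hm0, dt360]
    simp only [Complex.mul_re, Complex.mul_im, Complex.I_re, Complex.I_im]
    nlinarith [sq_nonneg (n.re * (z - p).re + n.im * (z - p).im)]
  obtain ⟨σ, hσ, hσm⟩ : ∃ σ : ℝ, σ ^ 2 = 1 ∧ σ * m0 = |m0| := by
    rcases lt_or_gt_of_ne hoff with h1 | h1
    · exact ⟨-1, by norm_num, by rw [abs_of_neg h1]; ring⟩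
    · exact ⟨1, by norm_num, by rw [abs_of_pos h1]; ring⟩
  have hσa : |σ| = 1 := by
    rw [← sq_eq_sq₀ (abs_nonneg _) zero_le_one, sq_abs, hσ]; norm_num
  refine ⟨|m0| / 8, by positivity, fun δ hδ => ?_⟩
  have c1 : Continuous fun u : ℂ => dt360 (Complex.I * n) (z - u) := by
    unfold dt360
    fun_prop
  have c2 : Continuous fun u : ℂ => dt360 n (z - u) := by
    unfold dt360
    fun_prop
  have c3 : Continuous fun u : ℂ => 1 - ‖z - u‖ ^ 2 := by fun_prop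
  have hz0 : 1 - ‖z - p‖ ^ 2 = 0 := by rw [← dist_eq_norm, dist_comm, hp]; norm_num
  have e1 : ∀ᶠ u in 𝓝 p, |dt360 (Complex.I * n) (z - u) - m0| < |m0| / 4 := by
    have := (c1.tendsto p)
    exact (Metric.tendsto_nhds.1 this (|m0| / 4) (by positivity)).mono fun u hu => by
      rwa [Real.dist_eq] at hu
  have e2 : ∀ᶠ u in 𝓝 p, |dt360 n (z - u)| < 2 := by
    have h1 : |dt360 n (z - p)| < 2 := by
      have : |dt360 n (z - p)| ≤ 1 := by
        rw [abs_le_one_iff_mul_self_le_one, dt360]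
        nlinarith [sq_nonneg (n.re * (z - p).im - n.im * (z - p).re)]
      linarith
    exact (continuous_abs.comp c2).continuousAt.eventually_lt continuousAt_const h1
  have e3 : ∀ᶠ u in 𝓝 p, |1 - ‖z - u‖ ^ 2| < min (δ * (|m0| / 2)) (m0 ^ 2 / 16) := by
    have h1 := Metric.tendsto_nhds.1 (c3.tendsto p) (min (δ * (|m0| / 2)) (m0 ^ 2 / 16))
      (lt_min (by positivity) (by positivity))
    exact h1.mono fun u hu => by
      rw [Real.dist_eq, hz0, sub_zero] at hu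
      exact hu
  filter_upwards [e1, e2, e3] with u h1 h2 h3 hne
  set ε := 1 - ‖z - u‖ ^ 2 with hε
  have hε0 : ε ≠ 0 := by
    intro h0
    apply hne
    have h4 : ‖z - u‖ ^ 2 = 1 := by linarith
    rw [dist_eq_norm]
    have h5 := norm_nonneg (z - u)
    nlinarith
  have hε1 : |ε| < δ * (|m0| / 2) := lt_of_lt_of_le h3 (min_le_left _ _)
  have hε2 : |ε| < m0 ^ 2 / 16 := lt_of_lt_of_le h3 (min_le_right _ _)
  let m : ℝ → ℝ := fun ρ => dt360 (Complex.I * n) (z - u) + ρ * dt360 n (z - u)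
  have hmc : Continuous m := by
    simp only [m]
    fun_prop
  have hm : ∀ ρ ∈ Icc (-(|m0| / 8)) (|m0| / 8), |m0| / 2 ≤ σ * m ρ := by
    intro ρ hρ
    have h4 : |ρ| ≤ |m0| / 8 := abs_le.2 hρ
    have h5 : |m ρ - m0| ≤ |m0| / 2 := by
      have h6 : m ρ - m0 = (dt360 (Complex.I * n) (z - u) - m0) + ρ * dt360 n (z - u) := by
        simp only [m]; ring
      rw [h6]
      refine (abs_add_le _ _).trans ?_
      rw [abs_mul]
      have h7 : |ρ| * |dt360 n (z - u)| ≤ |m0| / 8 * 2 :=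
        mul_le_mul h4 h2.le (abs_nonneg _) (by positivity)
      linarith
    have h6 : σ * m ρ = |m0| + σ * (m ρ - m0) := by rw [mul_sub, hσm]; ring
    have h7 : |σ * (m ρ - m0)| ≤ |m0| / 2 := by rw [abs_mul, hσa, one_mul]; exact h5
    have h8 := neg_le_of_abs_le h7
    linarith
  have hm2 : ∀ ρ ∈ Icc (-(|m0| / 8)) (|m0| / 8), 0 ≤ m ρ ^ 2 + ε * (1 + ρ ^ 2) := by
    intro ρ hρ
    have h4 := hm ρ hρ
    have h5 : (|m0| / 2) ^ 2 ≤ (σ * m ρ) ^ 2 := pow_le_pow_left₀ (by positivity) h4 2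
    have h6 : (σ * m ρ) ^ 2 = m ρ ^ 2 := by rw [mul_pow, hσ, one_mul]
    have h7 : (|m0| / 2) ^ 2 = m0 ^ 2 / 4 := by rw [div_pow, sq_abs]; norm_num
    rw [h6, h7] at h5
    have h8 : |ρ| ≤ 1 := by
      have := abs_le.2 hρ
      linarith
    have h9 : ρ ^ 2 ≤ 1 := by
      rw [← sq_abs]
      nlinarith [abs_nonneg ρ]
    have h10 := neg_lt_of_abs_lt hε2
    nlinarith [sq_nonneg ρ, sq_nonneg m0]
  let D : ℝ → ℝ := fun ρ => Real.sqrt (m ρ ^ 2 + ε * (1 + ρ ^ 2))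
  have hDc : Continuous D := by
    simp only [D]
    exact Real.continuous_sqrt.comp (by fun_prop)
  have hden : ∀ ρ ∈ Icc (-(|m0| / 8)) (|m0| / 8), |m0| / 2 ≤ σ * (m ρ + σ * D ρ) := by
    intro ρ hρ
    have h4 : σ * (m ρ + σ * D ρ) = σ * m ρ + D ρ := by
      have : σ * (m ρ + σ * D ρ) = σ * m ρ + σ ^ 2 * D ρ := by ring
      rw [this, hσ, one_mul]
    rw [h4]
    have h5 : 0 ≤ D ρ := Real.sqrt_nonneg _
    linarith [hm ρ hρ]
  have hden0 : ∀ ρ ∈ Icc (-(|m0| / 8)) (|m0| / 8), m ρ + σ * D ρ ≠ 0 := by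
    intro ρ hρ h0
    have := hden ρ hρ
    rw [h0, mul_zero] at this
    linarith
  refine ⟨fun ρ => ε / (m ρ + σ * D ρ), ?_, fun ρ hρ => ⟨?_, ?_, ?_⟩⟩
  · exact ContinuousOn.div continuousOn_const
      (hmc.add (continuous_const.mul hDc)).continuousOn hden0
  · exact div_ne_zero hε0 (hden0 ρ hρ)
  · have h4 : |m0| / 2 ≤ |m ρ + σ * D ρ| := by
      have h5 : |σ * (m ρ + σ * D ρ)| = |m ρ + σ * D ρ| := by rw [abs_mul, hσa, one_mul]
      rw [← h5]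
      exact (hden ρ hρ).trans (le_abs_self _)
    rw [abs_div, div_lt_iff₀ (by linarith)]
    refine hε1.trans_le ?_
    exact mul_le_mul_of_nonneg_left h4 hδ.le
  · set E := m ρ + σ * D ρ with hE
    have hE0 : E ≠ 0 := hden0 ρ hρ
    have hD2 : D ρ ^ 2 = m ρ ^ 2 + ε * (1 + ρ ^ 2) := Real.sq_sqrt (hm2 ρ hρ)
    have hEq : ε * (1 + ρ ^ 2) + 2 * m ρ * E - E ^ 2 = 0 := by
      rw [hE]
      have : ε * (1 + ρ ^ 2) + 2 * m ρ * (m ρ + σ * D ρ) - (m ρ + σ * D ρ) ^ 2 =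
        ε * (1 + ρ ^ 2) + m ρ ^ 2 - σ ^ 2 * D ρ ^ 2 := by ring
      rw [this, hσ, hD2]; ring
    have ht : (ε / E) ^ 2 * (1 + ρ ^ 2) + 2 * (ε / E) * m ρ - ε = 0 := by
      field_simp
      linear_combination ε * hEq
    have hsq : dist (z + ((ε / E : ℝ) : ℂ) * ((Complex.I + ρ) * n)) u ^ 2 = 1 := by
      rw [dist_eq_norm, Complex.sq_norm, Complex.normSq_apply]
      set t := ε / E with htd
      have hre : (z + (t : ℂ) * ((Complex.I + ρ) * n) - u).re =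
          (z - u).re + t * (ρ * n.re - n.im) := by simp; ring
      have him : (z + (t : ℂ) * ((Complex.I + ρ) * n) - u).im =
          (z - u).im + t * (n.re + ρ * n.im) := by simp; ring
      rw [hre, him]
      have hv : (z - u).re ^ 2 + (z - u).im ^ 2 = 1 - ε := by
        have h4 : ‖z - u‖ ^ 2 = 1 - ε := by rw [hε]; ring
        rw [Complex.sq_norm, Complex.normSq_apply] at h4
        linarith
      have hmr : m ρ = (ρ * n.re - n.im) * (z - u).re + (n.re + ρ * n.im) * (z - u).im := by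
        simp only [m, dt360, Complex.mul_re, Complex.mul_im, Complex.I_re, Complex.I_im]; ring
      rw [hmr] at ht
      linear_combination hv + ht + t ^ 2 * (1 + ρ ^ 2) * hnn
    have h4 := dist_nonneg (x := z + ((ε / E : ℝ) : ℂ) * ((Complex.I + ρ) * n)) (y := u)
    exact (sq_eq_sq₀ h4 zero_le_one).1 (by rw [hsq, one_pow])

namespace Irr

/-- two exact letters at the ends of a line -/
theorem line_ends (h : Irr U T) {z n : ℂ} (hn : ‖n‖ = 1)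
    (h2 : ∀ q, dist q z = 1 → 2 ≤ (T q).ncard) {a b a' b' : Fin k} {ρ : ℝ}
    (h1 : T (z + slv 1 n 0 ρ) ⊆ {a, b}) (h1' : T (z + slv (-1) n 0 ρ) ⊆ {a', b'}) :
    ∀ᶠ t : ℝ in 𝓝 0, t ≠ 0 → a ∉ T (z + t * ((Complex.I + ρ) * n)) ∧
      b ∉ T (z + t * ((Complex.I + ρ) * n)) ∧ a' ∉ T (z + t * ((Complex.I + ρ) * n)) ∧
      b' ∉ T (z + t * ((Complex.I + ρ) * n)) := by
  have t1 := tendsto_slv_line (z := z) hn (s := 1) (by norm_num) ρ
  have t2 := tendsto_slv_line (z := z) hn (s := -1) (by norm_num) ρ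
  have hreg : ∀ᶠ t : ℝ in 𝓝 0, t ^ 2 / 4 ≤ 1 / (1 + ρ ^ 2) := by
    have h1 : Continuous fun t : ℝ => t ^ 2 / 4 := by fun_prop
    have h3 := h1.tendsto 0
    have h4 : (0 : ℝ) ^ 2 / 4 < 1 / (1 + ρ ^ 2) := by
      have : (0 : ℝ) < 1 / (1 + ρ ^ 2) := by positivity
      simpa using this
    exact (h3.eventually_lt (tendsto_const_nhds (x := (1 / (1 + ρ ^ 2) : ℝ))) h4).mono
      fun t ht => ht.le
  have hfar : ∀ᶠ t : ℝ in 𝓝 0, dist (z + t * ((Complex.I + ρ) * n)) z < 1 := by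
    have h1 : Continuous fun t : ℝ => dist (z + t * ((Complex.I + ρ) * n)) z := by fun_prop
    exact h1.continuousAt.eventually_lt continuousAt_const (by simp)
  filter_upwards [hreg, hfar,
    t1.eventually (eventually_eventually_nhdsWithin.2 (h.pair_near h2 h1)),
    t2.eventually (eventually_eventually_nhdsWithin.2 (h.pair_near h2 h1'))] with t k1 k2 k3 k4 ht
  refine ⟨fun hc => ?_, fun hc => ?_, fun hc => ?_, fun hc => ?_⟩
  · exact h.foot_notMem (s := 1) hn (by norm_num) ht k1 k2 k3 (by simp) (h.sub _ hc)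
  · exact h.foot_notMem (s := 1) hn (by norm_num) ht k1 k2 k3 (by simp) (h.sub _ hc)
  · exact h.foot_notMem (s := -1) hn (by norm_num) ht k1 k2 k4 (by simp) (h.sub _ hc)
  · exact h.foot_notMem (s := -1) hn (by norm_num) ht k1 k2 k4 (by simp) (h.sub _ hc)

/-- **A blocked line.** -/
theorem block_slope (h : Irr U T) {z n p : ℂ} (hn : ‖n‖ = 1) (hp : dist p z = 1)
    (hoff : dt360 (Complex.I * n) (z - p) ≠ 0) {x r s o c d : Fin k}
    (hK : ∀ j, j = x ∨ j = o ∨ j = r ∨ j = s ∨ j = c ∨ j = d)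
    (h2 : ∀ q, dist q z = 1 → 2 ≤ (T q).ncard) (h3 : ∀ q, dist q z = 1 → (T q).ncard ≤ 3)
    (hxz : x ∈ Pal U z) (hxp : x ∈ Pal U p)
    (h1 : T (z + n) ⊆ {r, o, d}) (h4 : T (z - n) ⊆ {s, o, c})
    (hr : ∀ᶠ q in 𝓝[sphere z 1] (z + n), r ∈ T q) (hs : ∀ᶠ q in 𝓝[sphere z 1] (z - n), s ∈ T q)
    (hcd : ∀ᶠ w in 𝓝 z, c ∈ T w → d ∈ T w → 4 ≤ (T w).ncard) (hcd' : c ≠ d) (hco : c ≠ o)
    (hA : ∃ᶠ ρ : ℝ in 𝓝 0, T (z + slv 1 n 0 ρ) ⊆ {r, d} ∧ T (z + slv (-1) n 0 ρ) ⊆ {s, o})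
    (hB : ∃ᶠ ρ : ℝ in 𝓝 0, T (z + slv 1 n 0 ρ) ⊆ {r, o} ∧ T (z + slv (-1) n 0 ρ) ⊆ {s, c}) :
    False := by
  obtain ⟨δ1, hδ1, hcone⟩ := h.cone_single hn hK h2 h3 h1 h4 hr hs hcd
  obtain ⟨δ0, hδ0, harc⟩ := arc_in_cone hn hp hoff
  have hsmall : ∀ᶠ ρ : ℝ in 𝓝 0, |ρ| < min δ0 δ1 := by
    have hca : Continuous fun ρ : ℝ => |ρ| := continuous_abs
    exact (hca.continuousAt (x := 0)).eventually_lt continuousAt_const
      (by simpa using ⟨hδ0, hδ1⟩)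
  obtain ⟨ρA, ⟨hA1, hA2⟩, hAs⟩ := (hA.and_eventually hsmall).exists
  obtain ⟨ρB, ⟨hB1, hB2⟩, hBs⟩ := (hB.and_eventually hsmall).exists
  obtain ⟨δA, hδA, hbA⟩ := Metric.eventually_nhds_iff.1 (h.line_ends hn h2 hA1 hA2)
  obtain ⟨δB, hδB, hbB⟩ := Metric.eventually_nhds_iff.1 (h.line_ends hn h2 hB1 hB2)
  have hfr : ∃ᶠ u in 𝓝 p, u ∈ U x := mem_closure_iff_frequently.1 hxp
  obtain ⟨u, hux, hu⟩ := (hfr.and_eventually
    (harc (min δ1 (min δA δB)) (lt_min hδ1 (lt_min hδA hδB)))).exists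
  have hzu : dist z u ≠ 1 := fun h1 => h.mx.notMem' hux (by rw [dist_comm]; exact h1) hxz
  obtain ⟨τ, hτc, hτ⟩ := hu hzu
  set w : ℝ → ℂ := fun ρ => z + τ ρ * ((Complex.I + ρ) * n) with hw
  have hI : ∀ ρ, |ρ| < min δ0 δ1 → ρ ∈ Icc (-δ0) δ0 := fun ρ hρ =>
    abs_le.1 (hρ.le.trans (min_le_left _ _))
  have hxw : ∀ ρ ∈ Icc (-δ0) δ0, x ∉ T (w ρ) := fun ρ hρ hc =>
    h.mx.notMem' hux (by rw [dist_comm]; exact (hτ ρ hρ).2.2) (h.sub _ hc)
  have hseg : ∀ ρ ∈ uIcc ρA ρB, |ρ| < min δ0 δ1 := by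
    intro ρ hρ
    have hA' := abs_lt.1 hAs
    have hB' := abs_lt.1 hBs
    rw [abs_lt]
    rcases mem_uIcc.1 hρ with ⟨g1, g2⟩ | ⟨g1, g2⟩
    · exact ⟨hA'.1.trans_le g1, g2.trans_lt hB'.2⟩
    · exact ⟨hB'.1.trans_le g1, g2.trans_lt hA'.2⟩
  have hone : ∀ ρ ∈ uIcc ρA ρB, (∀ i ∈ T (w ρ), i = o ∨ i = c ∨ i = d) ∧
      ∀ i ∈ T (w ρ), ∀ j ∈ T (w ρ), i = j := by
    intro ρ hρ
    have g1 := hseg ρ hρ
    have g2 := hI ρ g1
    exact hcone (τ ρ) ρ ((hτ ρ g2).2.1.trans_le (min_le_left _ _)) (hτ ρ g2).1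
      (g1.trans_le (min_le_right _ _)) (hxw ρ g2)
  have hwc : ContinuousOn w (uIcc ρA ρB) := by
    have g1 : ContinuousOn τ (uIcc ρA ρB) := hτc.mono fun ρ hρ => hI ρ (hseg ρ hρ)
    have g2 : Continuous fun ρ : ℝ => ((Complex.I + ρ) * n) := by fun_prop
    exact continuousOn_const.add ((Complex.continuous_ofReal.comp_continuousOn g1).mul
      g2.continuousOn)
  -- the ends
  have hAe : c ∈ T (w ρA) := by
    have g1 := hI ρA hAs
    have g2 := hbA (y := τ ρA) (by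
      rw [Real.dist_eq, sub_zero]
      exact (hτ ρA g1).2.1.trans_le ((min_le_right _ _).trans (min_le_left _ _))) (hτ ρA g1).1
    obtain ⟨i, hi⟩ := h.ne (w ρA)
    rcases (hone ρA left_mem_uIcc).1 i hi with rfl | rfl | rfl
    · exact absurd hi g2.2.2.2
    · exact hi
    · exact absurd hi g2.2.1
  have hBe : d ∈ T (w ρB) := by
    have g1 := hI ρB hBs
    have g2 := hbB (y := τ ρB) (by
      rw [Real.dist_eq, sub_zero]
      exact (hτ ρB g1).2.1.trans_le ((min_le_right _ _).trans (min_le_right _ _))) (hτ ρB g1).1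
    obtain ⟨i, hi⟩ := h.ne (w ρB)
    rcases (hone ρB right_mem_uIcc).1 i hi with rfl | rfl | rfl
    · exact absurd hi g2.2.1
    · exact absurd hi g2.2.2.2
    · exact hi
  -- connectedness
  have hpre : IsPreconnected (w '' uIcc ρA ρB) := isPreconnected_uIcc.image w hwc
  have hcl : ∀ i, IsClosed {y | i ∈ T y} := h.closed
  obtain ⟨y, ⟨ρ, hρ, rfl⟩, hy1, hy2⟩ := isPreconnected_closed_iff.1 hpre {y | c ∈ T y}
    ({y | d ∈ T y} ∪ {y | o ∈ T y}) (hcl c) ((hcl d).union (hcl o)) (by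
      rintro _ ⟨ρ, hρ, rfl⟩
      obtain ⟨i, hi⟩ := h.ne (w ρ)
      rcases (hone ρ hρ).1 i hi with rfl | rfl | rfl
      · exact Or.inr (Or.inr hi)
      · exact Or.inl hi
      · exact Or.inr (Or.inl hi)) ⟨w ρA, ⟨ρA, left_mem_uIcc, rfl⟩, hAe⟩
    ⟨w ρB, ⟨ρB, right_mem_uIcc, rfl⟩, Or.inl hBe⟩
  rcases hy2 with hy2 | hy2
  · exact hcd' ((hone ρ hρ).2 c hy1 d hy2)
  · exact hco ((hone ρ hρ).2 c hy1 o hy2)

end Irr

end Vale.Agent.P032.Six
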