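import Vale.Agent.P032.S5.H349.BlockB
import Vale.Agent.P032.S5.H767.RawT

/-!
# P032: a blocked line in the angle coordinate
-/

open Set Filter Topology Metric

noncomputable section

namespace Vale.Agent.P032.Six

open Vale.Agent.P032.S5.H767

variable {k : ℕ} {U : Fin k → Set ℂ} {T : ℂ → Set (Fin k)}

theorem slv_tan (n : ℂ) {φ : ℝ} (hc : 0 < Real.cos φ) :
    slv 1 n 0 (-Real.tan φ) = n * cis φ := by
  have h1 : Real.sqrt (1 / (1 + (-Real.tan φ) ^ 2) - 0 ^ 2 / 4) = Real.cos φ := by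
    have h2 : (1 + Real.tan φ ^ 2)⁻¹ = Real.cos φ ^ 2 := Real.inv_one_add_tan_sq hc.ne'
    have h3 : 1 / (1 + (-Real.tan φ) ^ 2) - 0 ^ 2 / 4 = Real.cos φ ^ 2 := by
      rw [← h2]; norm_num
    rw [h3, Real.sqrt_sq hc.le]
  have h4 : Real.cos φ * Real.tan φ = Real.sin φ := by
    rw [mul_comm]; exact Real.tan_mul_cos hc.ne'
  unfold slv cis
  rw [h1, Complex.exp_mul_I]
  congr 1
  have e1 : (0 * -Real.tan φ / 2 + 1 * Real.cos φ : ℝ) = Real.cos φ := by ring
  have e2 : (0 / 2 - 1 * Real.cos φ * -Real.tan φ : ℝ) = Real.sin φ := by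
    rw [← h4]; ring
  rw [e1, e2]
  push_cast
  ring

theorem slv_neg_zero (n : ℂ) (ρ : ℝ) : slv (-1) n 0 ρ = -slv 1 n 0 ρ := by
  unfold slv
  push_cast
  ring

namespace Irr

/-- **A blocked line**, angle coordinate. -/
theorem block_pt (h : Irr U T) {z p : ℂ} {v0 : ℝ} (hp : dist p z = 1) (hp1 : p ≠ pt z v0)
    (hp2 : p ≠ pt z (v0 + 3)) {x r s o c d : Fin k}
    (hK : ∀ j, j = x ∨ j = o ∨ j = r ∨ j = s ∨ j = c ∨ j = d)
    (h2 : ∀ q, dist q z = 1 → 2 ≤ (T q).ncard) (h3 : ∀ q, dist q z = 1 → (T q).ncard ≤ 3)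
    (hxz : x ∈ Pal U z) (hxp : x ∈ Pal U p)
    (h1 : T (pt z v0) ⊆ {r, o, d}) (h4 : T (pt z (v0 + 3)) ⊆ {s, o, c})
    (hr : ∀ᶠ v in 𝓝 v0, r ∈ T (pt z v)) (hs : ∀ᶠ v in 𝓝 v0, s ∈ T (pt z (v + 3)))
    (hcd : ∀ᶠ w in 𝓝 z, c ∈ T w → d ∈ T w → 4 ≤ (T w).ncard) (hcd' : c ≠ d) (hco : c ≠ o)
    (hA : ∃ᶠ v : ℝ in 𝓝 v0, T (pt z v) ⊆ {r, d} ∧ T (pt z (v + 3)) ⊆ {s, o})
    (hB : ∃ᶠ v : ℝ in 𝓝 v0, T (pt z v) ⊆ {r, o} ∧ T (pt z (v + 3)) ⊆ {s, c}) : False := by
  set n : ℂ := cis (v0 * (Real.pi / 3)) with hn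
  have hn1 : ‖n‖ = 1 := norm_cis _
  have e1 : z + n = pt z v0 := rfl
  have e2 : z - n = pt z (v0 + 3) := by rw [pt_three, ← e1]; ring
  have hoff : dt360 (Complex.I * n) (z - p) ≠ 0 := by
    intro h0
    have hnn : n.re ^ 2 + n.im ^ 2 = 1 := by
      have h3 : ‖n‖ ^ 2 = 1 := by rw [hn1]; norm_num
      rw [Complex.sq_norm, Complex.normSq_apply] at h3
      linarith
    have hz1 : (z - p).re ^ 2 + (z - p).im ^ 2 = 1 := by
      have h3 : ‖z - p‖ ^ 2 = 1 := by rw [← dist_eq_norm, dist_comm, hp]; norm_num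
      rw [Complex.sq_norm, Complex.normSq_apply] at h3
      linarith
    have h5 : -n.im * (z - p).re + n.re * (z - p).im = 0 := by
      have e : dt360 (Complex.I * n) (z - p) = -n.im * (z - p).re + n.re * (z - p).im := by
        simp [dt360]
      rw [← e]; exact h0
    set a : ℝ := n.re * (z - p).re + n.im * (z - p).im with ha
    have h6 : a ^ 2 = 1 := by
      have : (n.re ^ 2 + n.im ^ 2) * ((z - p).re ^ 2 + (z - p).im ^ 2) =
        a ^ 2 + (-n.im * (z - p).re + n.re * (z - p).im) ^ 2 := by rw [ha]; ring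
      rw [hnn, hz1, h5] at this
      linarith
    have h7 : z - p = a * n := by
      apply Complex.ext
      · rw [Complex.re_ofReal_mul, ha]
        linear_combination -(z - p).re * hnn + (-n.im) * h5
      · rw [Complex.im_ofReal_mul, ha]
        linear_combination -(z - p).im * hnn + n.re * h5
    have h8 : a = 1 ∨ a = -1 := by
      have : (a - 1) * (a + 1) = 0 := by linear_combination h6
      rcases mul_eq_zero.1 this with h9 | h9
      · left; linarith
      · right; linarith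
    rcases h8 with h8 | h8
    · apply hp2
      rw [← e2]
      rw [h8] at h7
      push_cast at h7
      linear_combination -h7
    · apply hp1
      rw [← e1]
      rw [h8] at h7
      push_cast at h7
      linear_combination -h7
  -- change of coordinate
  let ρ : ℝ → ℝ := fun v => -Real.tan ((v - v0) * (Real.pi / 3))
  have hcos : ∀ᶠ v in 𝓝 v0, 0 < Real.cos ((v - v0) * (Real.pi / 3)) := by
    have hc : Continuous fun v : ℝ => Real.cos ((v - v0) * (Real.pi / 3)) := by fun_prop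
    exact continuousAt_const.eventually_lt hc.continuousAt (by simp)
  have hρ : Tendsto ρ (𝓝 v0) (𝓝 0) := by
    have g1 : ContinuousAt Real.tan ((v0 - v0) * (Real.pi / 3)) := by
      refine Real.continuousAt_tan.2 ?_
      rw [sub_self, zero_mul, Real.cos_zero]
      exact one_ne_zero
    have g2 : ContinuousAt (fun v : ℝ => (v - v0) * (Real.pi / 3)) v0 := by fun_prop
    have g3 : ContinuousAt ρ v0 := by
      have g0 : ContinuousAt (fun v : ℝ => Real.tan ((v - v0) * (Real.pi / 3))) v0 :=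
        ContinuousAt.comp (g := Real.tan) (f := fun v : ℝ => (v - v0) * (Real.pi / 3)) g1 g2
      exact g0.neg
    have g4 : ρ v0 = 0 := by simp [ρ]
    have g5 := g3.tendsto
    rwa [g4] at g5
  have hslv : ∀ᶠ v in 𝓝 v0, z + slv 1 n 0 (ρ v) = pt z v ∧
      z + slv (-1) n 0 (ρ v) = pt z (v + 3) := by
    filter_upwards [hcos] with v hv
    have g1 : z + slv 1 n 0 (ρ v) = pt z v := by
      simp only [ρ]
      rw [slv_tan n hv, hn, ← cis_add]
      unfold pt
      congr 2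
      ring
    refine ⟨g1, ?_⟩
    rw [slv_neg_zero, pt_three, ← g1]
    ring
  have hA' : ∃ᶠ ρ : ℝ in 𝓝 0, T (z + slv 1 n 0 ρ) ⊆ {r, d} ∧ T (z + slv (-1) n 0 ρ) ⊆ {s, o} := by
    refine hρ.frequently ((hA.and_eventually hslv).mono ?_)
    rintro v ⟨⟨g1, g2⟩, g3, g4⟩
    rw [g3, g4]
    exact ⟨g1, g2⟩
  have hB' : ∃ᶠ ρ : ℝ in 𝓝 0, T (z + slv 1 n 0 ρ) ⊆ {r, o} ∧ T (z + slv (-1) n 0 ρ) ⊆ {s, c} := by
    refine hρ.frequently ((hB.and_eventually hslv).mono ?_)
    rintro v ⟨⟨g1, g2⟩, g3, g4⟩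
    rw [g3, g4]
    exact ⟨g1, g2⟩
  have hr' : ∀ᶠ q in 𝓝[sphere z 1] (z + n), r ∈ T q := by
    rw [e1]; exact ev_circle z hr
  have hs' : ∀ᶠ q in 𝓝[sphere z 1] (z - n), s ∈ T q := by
    rw [e2]
    refine ev_circle z ?_
    have g1 : Tendsto (fun v : ℝ => v - 3) (𝓝 (v0 + 3)) (𝓝 v0) := by
      have : Continuous fun v : ℝ => v - 3 := by fun_prop
      have g2 := this.tendsto (v0 + 3)
      simpa using g2
    filter_upwards [g1.eventually hs] with v hv
    simpa using hv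
  exact h.block_slope hn1 hp hoff hK h2 h3 hxz hxp (by rw [e1]; exact h1) (by rw [e2]; exact h4)
    hr' hs' hcd hcd' hco hA' hB'

end Irr

end Vale.Agent.P032.Six
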