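import Vale.Agent.P032.S5.H349.EnL
import Vale.Agent.P032.S5.H12.Fld

/-!
# P032: the fields L2, L3, L3', auto for the ends `EE` of the two-pair centres
-/

open Set Filter Topology Metric

noncomputable section

namespace Vale.Agent.P032.S5.H349

open Vale.Agent.P032.Six

variable {U : Fin 6 → Set ℂ} {T : ℂ → Set (Fin 6)} {X : Set (Fin 6)} {z v q m : ℂ}

theorem ee_en (hv : EE T z v) : En T (T v) z v := by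
  obtain ⟨⟨o, ho, hd, h4, -, h2, ε, hε, hg⟩, -⟩ := hv
  exact ⟨rfl, h4, h2, hd, o, ε, ho, hε, hg⟩

theorem en_ee (hX : X.ncard = 3) (hv : En T X z v) (hp : ∃ p, Arc T z p (T z \ X)) :
    EE T z v := by
  obtain ⟨hT, h4, h2, hd, o, ε, ho, hε, hg⟩ := hv
  refine ⟨⟨o, ho, hd, h4, by rw [hT, hX], by rw [hT]; exact h2, ε, hε, fun t ht => ?_⟩, ?_⟩
  · rw [hg t ht, hT]
  · rw [hT]; exact hp

theorem h3_of (hu : ∀ z z', 4 ≤ (T z).ncard → 4 ≤ (T z').ncard → dist z z' ≠ 1)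
    (hv : EE T z v) : ∀ y, dist y z = 1 → (T y).ncard ≤ 3 := by
  intro y hy
  by_contra hcon
  exact hu y z (by omega) hv.card_z.ge hy

theorem ee_en' (hv : EE T z v ∧ T v = X) : En T X z v := by
  have := ee_en hv.1
  rw [hv.2] at this
  exact this

theorem ee_arc (hv : EE T z v ∧ T v = X) : ∃ p, Arc T z p (T z \ X) := by
  have := hv.1.2
  rw [hv.2] at this
  exact this

/-- the field `auto` -/
theorem ee_auto (h : Irr U T)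
    (hmin : ∀ z, 4 ≤ (T z).ncard → ∀ s, s ⊆ T z → s ≠ T z →
      ¬ ∀ᶠ w in 𝓝 z, ∃ i ∈ s, w ∈ U i ∨ (w ∈ XX U ∧ i ∈ Pal U w))
    (h4 : ∀ z, (T z).ncard ≤ 4) (hv : EE T z v) (hq : EE T z q) (hvq : T q = (T v)ᶜ)
    (hm : dist m z = 1) (hT : T m = T v) : EE T z m := by
  have hX : (T v).ncard = 3 := hv.card_v
  have hq' : En T (T v)ᶜ z q := by rw [← hvq]; exact ee_en hq
  exact en_ee hX (en_auto h hX hmin h4 (ee_en hv) hq' hm hT) hv.2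

/-- the field `L2` -/
theorem ee_L2 (h : Irr U T)
    (hmin : ∀ z, 4 ≤ (T z).ncard → ∀ s, s ⊆ T z → s ≠ T z →
      ¬ ∀ᶠ w in 𝓝 z, ∃ i ∈ s, w ∈ U i ∨ (w ∈ XX U ∧ i ∈ Pal U w))
    (h4 : ∀ z, (T z).ncard ≤ 4)
    (hu : ∀ z z', 4 ≤ (T z).ncard → 4 ≤ (T z').ncard → dist z z' ≠ 1)
    (hv : EE T z v ∧ T v = X) (hq : EE T z q ∧ T q = Xᶜ) :
    (∃ v', v' ≠ v ∧ EE T z v' ∧ T v' = X) ∨ ∃ q', q' ≠ q ∧ EE T z q' ∧ T q' = Xᶜ := by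
  have hX : X.ncard = 3 := by rw [← hv.2]; exact hv.1.card_v
  rcases en_L2 h hX hmin h4 (h3_of hu hv.1) (ee_en' hv) (ee_en' hq) with ⟨v', h1, h2⟩ | ⟨q', h1, h2⟩
  · exact Or.inl ⟨v', h1, en_ee hX h2 (ee_arc hv), h2.1⟩
  · exact Or.inr ⟨q', h1, en_ee (ncard_compl_three hX) h2 (ee_arc hq), h2.1⟩

/-- the field `L3` -/
theorem ee_L3 (h : Irr U T)
    (hmin : ∀ z, 4 ≤ (T z).ncard → ∀ s, s ⊆ T z → s ≠ T z →
      ¬ ∀ᶠ w in 𝓝 z, ∃ i ∈ s, w ∈ U i ∨ (w ∈ XX U ∧ i ∈ Pal U w))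
    (h4 : ∀ z, (T z).ncard ≤ 4)
    (hu : ∀ z z', 4 ≤ (T z).ncard → 4 ≤ (T z').ncard → dist z z' ≠ 1) {q' : ℂ}
    (hv : EE T z v ∧ T v = X) (hq : EE T z q ∧ T q = Xᶜ) (hq' : EE T z q' ∧ T q' = Xᶜ)
    (hne : q ≠ q') (h1 : ∀ v', EE T z v' ∧ T v' = X → v' = v)
    (h2 : ∀ p, EE T z p ∧ T p = Xᶜ → p = q ∨ p = q') :
    ∃ α β γ : ℝ, 0 < α ∧ 0 < β ∧ 0 < γ ∧
      (α : ℂ) * (v - z) + (β : ℂ) * (q - z) + (γ : ℂ) * (q' - z) = 0 := by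
  have hX : X.ncard = 3 := by rw [← hv.2]; exact hv.1.card_v
  refine en_L3 h hX hmin h4 (h3_of hu hv.1) (ee_en' hv) (ee_en' hq) (ee_en' hq') hne
    (fun v' hv' => h1 v' ⟨en_ee hX hv' (ee_arc hv), hv'.1⟩)
    (fun p hp => h2 p ⟨en_ee (ncard_compl_three hX) hp (ee_arc hq), hp.1⟩)

/-- the field `L3'` -/
theorem ee_L3' (h : Irr U T)
    (hmin : ∀ z, 4 ≤ (T z).ncard → ∀ s, s ⊆ T z → s ≠ T z →
      ¬ ∀ᶠ w in 𝓝 z, ∃ i ∈ s, w ∈ U i ∨ (w ∈ XX U ∧ i ∈ Pal U w))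
    (h4 : ∀ z, (T z).ncard ≤ 4)
    (hu : ∀ z z', 4 ≤ (T z).ncard → 4 ≤ (T z').ncard → dist z z' ≠ 1) {v' : ℂ}
    (hq : EE T z q ∧ T q = Xᶜ) (hv : EE T z v ∧ T v = X) (hv' : EE T z v' ∧ T v' = X)
    (hne : v ≠ v') (h1 : ∀ q', EE T z q' ∧ T q' = Xᶜ → q' = q)
    (h2 : ∀ p, EE T z p ∧ T p = X → p = v ∨ p = v') :
    ∃ α β γ : ℝ, 0 < α ∧ 0 < β ∧ 0 < γ ∧
      (α : ℂ) * (q - z) + (β : ℂ) * (v - z) + (γ : ℂ) * (v' - z) = 0 := by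
  have hX : X.ncard = 3 := by rw [← hv.2]; exact hv.1.card_v
  refine en_L3' h hX hmin h4 (h3_of hu hv.1) (ee_en' hq) (ee_en' hv) (ee_en' hv') hne
    (fun p hp => h1 p ⟨en_ee (ncard_compl_three hX) hp (ee_arc hq), hp.1⟩)
    (fun v' hv' => h2 v' ⟨en_ee hX hv' (ee_arc hv), hv'.1⟩)

end Vale.Agent.P032.S5.H349
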