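import Vale.Agent.P032.S5.H349.Bridge
import Vale.Agent.P032.S5.H360.Degree
import Vale.Agent.P032.S5.H80.Ends

/-!
# P032: L2 and L3 for the ends of a two-pair centre, final forms

Hypotheses: `Irr U T`, minimality `hmin`, `|T| ≤ 4`, and `|T y| ≤ 3` on the circle `S(z)`.
-/

open Set Filter Topology Metric

noncomputable section

namespace Vale.Agent.P032.S5.H349

open Vale.Agent.P032.Six Vale.Agent.P032.Words Vale.Agent.P032.S5.H767

variable {U : Fin 6 → Set ℂ} {T : ℂ → Set (Fin 6)} {X : Set (Fin 6)} {z v q m : ℂ}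

/-- the exact arc at an end -/
theorem en_arc (h : Irr U T) (hv : En T X z v) : ∃ p, Arc T z p (T z ∩ X) := by
  obtain ⟨-, -, h2, hd, o, ε, ho, hε, hg⟩ := hv
  refine ⟨z + (v - z) * cis (-(o * (ε / 2))), dist_rot hd _, ?_⟩
  exact h.pair_open h2 inter_subset_left (hg (ε / 2) ⟨by linarith, by linarith⟩).subset

/-- only the two pairs occur on the circle -/
theorem en_pairs (h : Irr U T)
    (hmin : ∀ z, 4 ≤ (T z).ncard → ∀ s, s ⊆ T z → s ≠ T z →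
      ¬ ∀ᶠ w in 𝓝 z, ∃ i ∈ s, w ∈ U i ∨ (w ∈ XX U ∧ i ∈ Pal U w))
    (hv : En T X z v) (hq : En T Xᶜ z q) :
    ∀ y, dist y z = 1 → (∀ᶠ q in 𝓝[sphere z 1] y, T q = T y) → T y ⊆ T z →
      T y = T z ∩ X ∨ T y = T z ∩ Xᶜ := by
  intro y hy hcon hsub
  have hzX : z ∈ XX U := by
    obtain ⟨i, hi⟩ := h.ne y
    exact h.mem_XX (by rw [dist_comm]; exact hy) (hsub hi) (h.sub y hi)
  have h5 := h.gap_two hzX hy (P := T y) (hcon.mono fun q' hq' => by rw [← hq']; exact h.sub q')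
  have h6 := Set.ncard_sdiff hsub (Set.toFinite _)
  have h7 := Set.ncard_le_ncard hsub (Set.toFinite _)
  have h4 := hv.2.1
  have hy2 : (T y).ncard = 2 := by
    have h8 : ¬ (T y).ncard ≤ 1 := by
      intro h9
      obtain ⟨i, hi⟩ := h.ne y
      have h10 : T y ⊆ {i} := fun m hm => (Set.ncard_le_one (Set.toFinite _)).1 h9 m hm i hi
      exact h.mx.notMem' (h.mem_of_single h10) hy (h.sub z (hsub hi))
    omega
  obtain ⟨p, hp⟩ := en_arc h hv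
  obtain ⟨p', hp'⟩ := en_arc h hq
  have hTp := hp.mem
  have hTp' := hp'.mem
  have k1 := h.pairs_disjoint hmin hv.2.1 hy hp.1 hsub (by rw [hTp]; exact inter_subset_left) hy2
    (by rw [hTp]; exact hv.2.2.1)
  have k2 := h.pairs_disjoint hmin hv.2.1 hy hp'.1 hsub (by rw [hTp']; exact inter_subset_left) hy2
    (by rw [hTp']; exact hq.2.2.1)
  rcases k1 with k1 | k1
  · exact Or.inl (k1.trans hTp)
  rcases k2 with k2 | k2
  · exact Or.inr (k2.trans hTp')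
  exfalso
  obtain ⟨i, hi⟩ := h.ne y
  rw [hTp] at k1
  rw [hTp'] at k2
  by_cases hiX : i ∈ X
  · exact Set.disjoint_left.1 k1 hi ⟨hsub hi, hiX⟩
  · exact Set.disjoint_left.1 k2 hi ⟨hsub hi, hiX⟩

/-- clean ends in the form of `Cln` -/
theorem cln_of {P : Set (Fin 6)} {l : Fin 6} {o : ℝ} (hE : CEnd T z m P l o)
    (hP : T z ∩ T m = P) : Cln T z m := by
  have h1 := hE.arc.and (hE.after.mono fun t ht => ht.2)
  obtain ⟨ε, hε, hs⟩ := mem_nhdsGT_iff_exists_Ioo_subset.1 h1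
  refine ⟨o, ε, hE.o1, hε, fun t ht => ?_, fun t ht => ?_⟩
  · have := (hs ht).1
    rw [neg_mul] at this
    rw [hP]; exact this
  · rw [hP]; exact (hs ht).2

/-- every point with the palette of an end is clean, first type -/
theorem en_cln (h : Irr U T) (hX : X.ncard = 3)
    (hmin : ∀ z, 4 ≤ (T z).ncard → ∀ s, s ⊆ T z → s ≠ T z →
      ¬ ∀ᶠ w in 𝓝 z, ∃ i ∈ s, w ∈ U i ∨ (w ∈ XX U ∧ i ∈ Pal U w))
    (h4 : ∀ z, (T z).ncard ≤ 4) (hv : En T X z v) (hq : En T Xᶜ z q) (hm : dist m z = 1)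
    (hT : T m = X) : Cln T z m := by
  obtain ⟨a, b, c, d, e, f, C, hXabe, hXcdf⟩ := exists_ctr h hX (en_pairs h hmin hv hq) hv hq
  obtain ⟨⟨ab, ac, ad, ae, af⟩, ⟨bc, bd, be, bf⟩, ⟨cd, ce, cf⟩, ⟨de, df⟩, ef⟩ := nd_ne C.nd
  have hPab : T z ∩ X = {a, b} := by
    rw [C.pal, hXabe]
    ext i
    simp only [mem_inter_iff, mem_insert_iff, mem_singleton_iff]
    constructor
    · rintro ⟨h1, h2⟩
      rcases h2 with rfl | rfl | rfl
      · exact Or.inl rfl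
      · exact Or.inr rfl
      · rcases h1 with h1 | h1 | h1 | h1
        exacts [Or.inl h1, Or.inr h1, absurd h1 ce.symm, absurd h1 de.symm]
    · rintro (rfl | rfl)
      · exact ⟨Or.inl rfl, Or.inl rfl⟩
      · exact ⟨Or.inr (Or.inl rfl), Or.inr (Or.inl rfl)⟩
  have hPcd : T z ∩ Xᶜ = {c, d} := by
    rw [C.pal, hXcdf]
    ext i
    simp only [mem_inter_iff, mem_insert_iff, mem_singleton_iff]
    constructor
    · rintro ⟨h1, h2⟩
      rcases h2 with rfl | rfl | rfl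
      · exact Or.inl rfl
      · exact Or.inr rfl
      · rcases h1 with h1 | h1 | h1 | h1
        exacts [absurd h1 af.symm, absurd h1 bf.symm, Or.inl h1, Or.inr h1]
    · rintro (rfl | rfl)
      · exact ⟨Or.inr (Or.inr (Or.inl rfl)), Or.inl rfl⟩
      · exact ⟨Or.inr (Or.inr (Or.inr rfl)), Or.inr (Or.inl rfl)⟩
  have D : Cfg T z m q a b c d e f := by
    refine ⟨⟨C.pal, ac, ad, bc, bd, ab, cd, ?_, ?_⟩, hm, hq.2.2.2.1, ?_, ?_, ?_, ?_, ef⟩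
    · obtain ⟨p, hp⟩ := en_arc h hv
      exact ⟨p, by rw [← hPab]; exact hp⟩
    · obtain ⟨p, hp⟩ := en_arc h hq
      exact ⟨p, by rw [← hPcd]; exact hp⟩
    · rw [hT, hXabe]
    · rw [hq.1, hXcdf]
    · rw [C.pal]
      simp only [mem_insert_iff, mem_singleton_iff, not_or]
      exact ⟨ae.symm, be.symm, ce.symm, de.symm⟩
    · rw [C.pal]
      simp only [mem_insert_iff, mem_singleton_iff, not_or]
      exact ⟨af.symm, bf.symm, cf.symm, df.symm⟩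
  have hP : T z ∩ T m = {a, b} := by rw [hT]; exact hPab
  rcases D.normal h (h4 _) with N | N | N | N
  · obtain ⟨o, hE, -⟩ := N.lp1 h
    exact cln_of hE hP
  · obtain ⟨o, hE, -⟩ := N.lp1 h
    exact cln_of hE (by rw [hP, pair_comm])
  · obtain ⟨o, hE, -⟩ := N.lp1 h
    exact cln_of hE hP
  · obtain ⟨o, hE, -⟩ := N.lp1 h
    exact cln_of hE (by rw [hP, pair_comm])

/-- every point with the palette of one of the two ends is clean -/
theorem en_cln' (h : Irr U T) (hX : X.ncard = 3)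
    (hmin : ∀ z, 4 ≤ (T z).ncard → ∀ s, s ⊆ T z → s ≠ T z →
      ¬ ∀ᶠ w in 𝓝 z, ∃ i ∈ s, w ∈ U i ∨ (w ∈ XX U ∧ i ∈ Pal U w))
    (h4 : ∀ z, (T z).ncard ≤ 4) (hv : En T X z v) (hq : En T Xᶜ z q) :
    ∀ m, dist m z = 1 → T m = X ∨ T m = Xᶜ → Cln T z m := by
  rintro m hm (hT | hT)
  · exact en_cln h hX hmin h4 hv hq hm hT
  · exact en_cln (X := Xᶜ) h (ncard_compl_three hX) hmin h4 hq (by rw [compl_compl]; exact hv) hm hT

/-- **auto**: every point of the circle with the palette of an end is an end -/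
theorem en_auto (h : Irr U T) (hX : X.ncard = 3)
    (hmin : ∀ z, 4 ≤ (T z).ncard → ∀ s, s ⊆ T z → s ≠ T z →
      ¬ ∀ᶠ w in 𝓝 z, ∃ i ∈ s, w ∈ U i ∨ (w ∈ XX U ∧ i ∈ Pal U w))
    (h4 : ∀ z, (T z).ncard ≤ 4) (hv : En T X z v) (hq : En T Xᶜ z q) (hm : dist m z = 1)
    (hT : T m = X) : En T X z m :=
  en_of_cln hv hm hT (en_cln h hX hmin h4 hv hq hm hT)

/-- **L2**, final form -/
theorem en_L2 (h : Irr U T) (hX : X.ncard = 3)
    (hmin : ∀ z, 4 ≤ (T z).ncard → ∀ s, s ⊆ T z → s ≠ T z →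
      ¬ ∀ᶠ w in 𝓝 z, ∃ i ∈ s, w ∈ U i ∨ (w ∈ XX U ∧ i ∈ Pal U w))
    (h4 : ∀ z, (T z).ncard ≤ 4) (h3 : ∀ y, dist y z = 1 → (T y).ncard ≤ 3)
    (hv : En T X z v) (hq : En T Xᶜ z q) :
    (∃ v', v' ≠ v ∧ En T X z v') ∨ ∃ q', q' ≠ q ∧ En T Xᶜ z q' :=
  L2_of h hX h3 (en_pairs h hmin hv hq) (en_cln' h hX hmin h4 hv hq) hv hq

/-- **L3**, final form -/
theorem en_L3 (h : Irr U T) (hX : X.ncard = 3)
    (hmin : ∀ z, 4 ≤ (T z).ncard → ∀ s, s ⊆ T z → s ≠ T z →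
      ¬ ∀ᶠ w in 𝓝 z, ∃ i ∈ s, w ∈ U i ∨ (w ∈ XX U ∧ i ∈ Pal U w))
    (h4 : ∀ z, (T z).ncard ≤ 4) (h3 : ∀ y, dist y z = 1 → (T y).ncard ≤ 3) {q' : ℂ}
    (hv : En T X z v) (hq : En T Xᶜ z q) (hq' : En T Xᶜ z q') (hne : q ≠ q')
    (hu : ∀ v', En T X z v' → v' = v) (hu' : ∀ p, En T Xᶜ z p → p = q ∨ p = q') :
    ∃ α β γ : ℝ, 0 < α ∧ 0 < β ∧ 0 < γ ∧
      (α : ℂ) * (v - z) + (β : ℂ) * (q - z) + (γ : ℂ) * (q' - z) = 0 :=
  L3_of h hX h3 (en_pairs h hmin hv hq) (en_cln' h hX hmin h4 hv hq) hv hq hq' hne hu hu'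

/-- **L3'**, final form -/
theorem en_L3' (h : Irr U T) (hX : X.ncard = 3)
    (hmin : ∀ z, 4 ≤ (T z).ncard → ∀ s, s ⊆ T z → s ≠ T z →
      ¬ ∀ᶠ w in 𝓝 z, ∃ i ∈ s, w ∈ U i ∨ (w ∈ XX U ∧ i ∈ Pal U w))
    (h4 : ∀ z, (T z).ncard ≤ 4) (h3 : ∀ y, dist y z = 1 → (T y).ncard ≤ 3) {v' : ℂ}
    (hq : En T Xᶜ z q) (hv : En T X z v) (hv' : En T X z v') (hne : v ≠ v')
    (hu : ∀ q', En T Xᶜ z q' → q' = q) (hu' : ∀ p, En T X z p → p = v ∨ p = v') :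
    ∃ α β γ : ℝ, 0 < α ∧ 0 < β ∧ 0 < γ ∧
      (α : ℂ) * (q - z) + (β : ℂ) * (v - z) + (γ : ℂ) * (v' - z) = 0 :=
  en_L3 (X := Xᶜ) h (ncard_compl_three hX) hmin h4 h3 hq (by rw [compl_compl]; exact hv)
    (by rw [compl_compl]; exact hv') hne hu (by rw [compl_compl]; exact hu')

end Vale.Agent.P032.S5.H349
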