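import Vale.Agent.P032.S5.H349.BlockPt

/-!
# P032: two blocked lines

`Irr.kill_B` : palettes `{o, r, d}`, `{o, s, c}`, `{o, s, c}`, `{o, r, d}` at the positions
`1, 2, 4, 5` with the two hexagons `A`, `B` are impossible.
-/

open Set Filter Topology Metric

noncomputable section

namespace Vale.Agent.P032.Six

open Vale.Agent.P032.S5.H767

variable {k : ℕ} {U : Fin k → Set ℂ} {T : ℂ → Set (Fin k)}

theorem pt_ne_of (z : ℂ) {a b : ℝ} (h : dist (pt z a) (pt z b) = 1) : pt z a ≠ pt z b := by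
  intro h0
  rw [h0, dist_self] at h
  exact zero_ne_one h

theorem dist_pt_one' (z : ℂ) {a b : ℝ} (h : b = a + 1) : dist (pt z a) (pt z b) = 1 := by
  rw [h]; exact dist_pt_one z a

theorem freq_shift {P : ℝ → Prop} {u a : ℝ} (h : ∃ᶠ v in 𝓝 u, P (v + a)) :
    ∃ᶠ v in 𝓝 (u + a), P v := by
  have h1 : Tendsto (fun v : ℝ => v + a) (𝓝 u) (𝓝 (u + a)) :=
    (continuous_add_right a).tendsto u
  exact h1.frequently h

theorem ev_shift {P : ℝ → Prop} {u a : ℝ} (h : ∀ᶠ v in 𝓝 u, P (v + a)) :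
    ∀ᶠ v in 𝓝 (u + a), P v := by
  have h1 : Tendsto (fun v : ℝ => v - a) (𝓝 (u + a)) (𝓝 u) := by
    have : Continuous fun v : ℝ => v - a := by fun_prop
    have g2 := this.tendsto (u + a)
    simpa using g2
  filter_upwards [h1.eventually h] with v hv
  simpa using hv

namespace Irr

/-- **Two blocked lines.** -/
theorem kill_B (h : Irr U T) {z p : ℂ} {u : ℝ} (hp : dist p z = 1) {x r s o c d : Fin k}
    (hK : ∀ j, j = x ∨ j = o ∨ j = r ∨ j = s ∨ j = c ∨ j = d)
    (h2 : ∀ q, dist q z = 1 → 2 ≤ (T q).ncard) (h3 : ∀ q, dist q z = 1 → (T q).ncard ≤ 3)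
    (hxz : x ∈ Pal U z) (hxp : x ∈ Pal U p)
    (t1 : T (pt z (u + 1)) ⊆ {r, o, d}) (t4 : T (pt z (u + 4)) ⊆ {s, o, c})
    (t2 : T (pt z (u + 2)) ⊆ {s, o, c}) (t5 : T (pt z (u + 5)) ⊆ {r, o, d})
    (hr : ∀ᶠ v in 𝓝 u, r ∈ T (pt z (v + 1)) ∧ s ∈ T (pt z (v + 4)) ∧ s ∈ T (pt z (v + 2)) ∧
      r ∈ T (pt z (v + 5)))
    (hcd : ∀ᶠ w in 𝓝 z, c ∈ T w → d ∈ T w → 4 ≤ (T w).ncard) (hcd' : c ≠ d) (hco : c ≠ o)
    (hA : ∃ᶠ v : ℝ in 𝓝 u, T (pt z (v + 1)) ⊆ {r, d} ∧ T (pt z (v + 4)) ⊆ {s, o} ∧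
      T (pt z (v + 2)) ⊆ {s, o} ∧ T (pt z (v + 5)) ⊆ {r, d})
    (hB : ∃ᶠ v : ℝ in 𝓝 u, T (pt z (v + 1)) ⊆ {r, o} ∧ T (pt z (v + 4)) ⊆ {s, c} ∧
      T (pt z (v + 2)) ⊆ {s, c} ∧ T (pt z (v + 5)) ⊆ {r, o}) : False := by
  have e4 : ∀ v : ℝ, v + 4 = (v + 1) + 3 := fun v => by ring
  have e8 : ∀ v : ℝ, pt z (v + 2) = pt z ((v + 5) + 3) := fun v => by
    have : v + 5 + 3 = v + 2 + 6 := by ring
    rw [this, pt_six]
  by_cases hl : p = pt z (u + 1) ∨ p = pt z (u + 4)
  · -- use the line through the positions 5 and 2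
    have n1 : p ≠ pt z (u + 5) := by
      rcases hl with hl | hl
      · intro h0
        have g1 : pt z (u + 1) + pt z (u + 5) = pt z (u + 6) + z := by
          have := pt_sum z (u + 5)
          have a1 : u + 5 + 2 = (u + 1) + 6 := by ring
          have a2 : u + 5 + 1 = u + 6 := by ring
          rw [a1, pt_six, a2] at this
          linear_combination this
        rw [← hl, ← h0] at g1
        have g2 : p - z = pt z (u + 6) - p := by linear_combination g1
        have g3 : dist p (pt z (u + 5 + 1)) = 1 := by rw [h0]; exact dist_pt_one z (u + 5)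
        have g4 : (2 : ℂ) * (p - z) = pt z (u + 6) - z := by linear_combination g1
        have g5 : ‖(2 : ℂ) * (p - z)‖ = 2 := by
          rw [norm_mul, ← dist_eq_norm, hp]; simp
        rw [g4, ← dist_eq_norm, dist_pt] at g5
        norm_num at g5
      · rw [hl]
        exact pt_ne_of z (dist_pt_one' z (by ring))
    have n2 : p ≠ pt z ((u + 5) + 3) := by
      rw [← e8]
      rcases hl with hl | hl
      · rw [hl]
        exact pt_ne_of z (dist_pt_one' z (by ring))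
      · intro h0
        have g1 : pt z (u + 2) + pt z (u + 4) = pt z (u + 3) + z := by
          have := pt_sum z (u + 2)
          have a1 : u + 2 + 2 = u + 4 := by ring
          have a2 : u + 2 + 1 = u + 3 := by ring
          rw [a1, a2] at this
          exact this
        rw [← hl, ← h0] at g1
        have g4 : (2 : ℂ) * (p - z) = pt z (u + 3) - z := by linear_combination g1
        have g5 : ‖(2 : ℂ) * (p - z)‖ = 2 := by
          rw [norm_mul, ← dist_eq_norm, hp]; simp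
        rw [g4, ← dist_eq_norm, dist_pt] at g5
        norm_num at g5
    refine h.block_pt (v0 := u + 5) hp n1 n2 hK h2 h3 hxz hxp t5 (by rw [← e8]; exact t2)
      (ev_shift (P := fun v => r ∈ T (pt z v)) (hr.mono fun v hv => hv.2.2.2))
      (ev_shift (P := fun v => s ∈ T (pt z (v + 3))) (hr.mono fun v hv => by
        rw [← e8]; exact hv.2.2.1)) hcd hcd' hco ?_ ?_
    · exact freq_shift (P := fun v => T (pt z v) ⊆ {r, d} ∧ T (pt z (v + 3)) ⊆ {s, o})
        (hA.mono fun v hv => ⟨hv.2.2.2, by rw [← e8]; exact hv.2.2.1⟩)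
    · exact freq_shift (P := fun v => T (pt z v) ⊆ {r, o} ∧ T (pt z (v + 3)) ⊆ {s, c})
        (hB.mono fun v hv => ⟨hv.2.2.2, by rw [← e8]; exact hv.2.2.1⟩)
  · push Not at hl
    refine h.block_pt (v0 := u + 1) hp hl.1 (by rw [← e4]; exact hl.2) hK h2 h3 hxz hxp t1
      (by rw [← e4]; exact t4)
      (ev_shift (P := fun v => r ∈ T (pt z v)) (hr.mono fun v hv => hv.1))
      (ev_shift (P := fun v => s ∈ T (pt z (v + 3))) (hr.mono fun v hv => by
        rw [← e4]; exact hv.2.1)) hcd hcd' hco ?_ ?_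
    · exact freq_shift (P := fun v => T (pt z v) ⊆ {r, d} ∧ T (pt z (v + 3)) ⊆ {s, o})
        (hA.mono fun v hv => ⟨hv.1, by rw [← e4]; exact hv.2.1⟩)
    · exact freq_shift (P := fun v => T (pt z v) ⊆ {r, o} ∧ T (pt z (v + 3)) ⊆ {s, c})
        (hB.mono fun v hv => ⟨hv.1, by rw [← e4]; exact hv.2.1⟩)

end Irr

end Vale.Agent.P032.Six
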