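import Vale.Agent.P032.S5.H349.KillB

/-!
# P032: blocked lines with persistent pairs

The same as `block_slope`, `block_pt`, `kill_B`, but at the times `A`, `B` the palettes only contain
the pairs locally (exact triple arcs are allowed).
-/

open Set Filter Topology Metric

noncomputable section

namespace Vale.Agent.P032.Six

open Vale.Agent.P032.S5.H767

variable {k : ℕ} {U : Fin k → Set ℂ} {T : ℂ → Set (Fin k)}

namespace Irr

/-- two persistent pairs at the ends of a line -/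
theorem line_ends' (h : Irr U T) {z n : ℂ} (hn : ‖n‖ = 1) {a b a' b' : Fin k} {ρ : ℝ}
    (h1 : ∀ᶠ q in 𝓝[sphere z 1] (z + slv 1 n 0 ρ), ({a, b} : Set (Fin k)) ⊆ T q)
    (h1' : ∀ᶠ q in 𝓝[sphere z 1] (z + slv (-1) n 0 ρ), ({a', b'} : Set (Fin k)) ⊆ T q) :
    ∀ᶠ t : ℝ in 𝓝 0, t ≠ 0 → a ∉ T (z + t * ((Complex.I + ρ) * n)) ∧
      b ∉ T (z + t * ((Complex.I + ρ) * n)) ∧ a' ∉ T (z + t * ((Complex.I + ρ) * n)) ∧
      b' ∉ T (z + t * ((Complex.I + ρ) * n)) := by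
  have t1 := tendsto_slv_line (z := z) hn (s := 1) (by norm_num) ρ
  have t2 := tendsto_slv_line (z := z) hn (s := -1) (by norm_num) ρ
  have hreg : ∀ᶠ t : ℝ in 𝓝 0, t ^ 2 / 4 ≤ 1 / (1 + ρ ^ 2) := by
    have h1 : Continuous fun t : ℝ => t ^ 2 / 4 := by fun_prop
    have h3 := h1.tendsto 0
    have h4 : (0 : ℝ) ^ 2 / 4 < 1 / (1 + ρ ^ 2) := by
      have : (0 : ℝ) < 1 / (1 + ρ ^ 2) := by positivity
      simpa using this
    exact (h3.eventually_lt (tendsto_const_nhds (x := (1 / (1 + ρ ^ 2) : ℝ))) h4).mono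
      fun t ht => ht.le
  have hfar : ∀ᶠ t : ℝ in 𝓝 0, dist (z + t * ((Complex.I + ρ) * n)) z < 1 := by
    have h1 : Continuous fun t : ℝ => dist (z + t * ((Complex.I + ρ) * n)) z := by fun_prop
    exact h1.continuousAt.eventually_lt continuousAt_const (by simp)
  filter_upwards [hreg, hfar,
    t1.eventually (eventually_eventually_nhdsWithin.2 (h1.mono fun q hq => hq.trans (h.sub q))),
    t2.eventually (eventually_eventually_nhdsWithin.2 (h1'.mono fun q hq => hq.trans (h.sub q)))]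
    with t k1 k2 k3 k4 ht
  refine ⟨fun hc => ?_, fun hc => ?_, fun hc => ?_, fun hc => ?_⟩
  · exact h.foot_notMem (s := 1) hn (by norm_num) ht k1 k2 k3 (by simp) (h.sub _ hc)
  · exact h.foot_notMem (s := 1) hn (by norm_num) ht k1 k2 k3 (by simp) (h.sub _ hc)
  · exact h.foot_notMem (s := -1) hn (by norm_num) ht k1 k2 k4 (by simp) (h.sub _ hc)
  · exact h.foot_notMem (s := -1) hn (by norm_num) ht k1 k2 k4 (by simp) (h.sub _ hc)

/-- **A blocked line.** -/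
theorem block_slope' (h : Irr U T) {z n p : ℂ} (hn : ‖n‖ = 1) (hp : dist p z = 1)
    (hoff : dt360 (Complex.I * n) (z - p) ≠ 0) {x r s o c d : Fin k}
    (hK : ∀ j, j = x ∨ j = o ∨ j = r ∨ j = s ∨ j = c ∨ j = d)
    (h2 : ∀ q, dist q z = 1 → 2 ≤ (T q).ncard) (h3 : ∀ q, dist q z = 1 → (T q).ncard ≤ 3)
    (hxz : x ∈ Pal U z) (hxp : x ∈ Pal U p)
    (h1 : T (z + n) ⊆ {r, o, d}) (h4 : T (z - n) ⊆ {s, o, c})
    (hr : ∀ᶠ q in 𝓝[sphere z 1] (z + n), r ∈ T q) (hs : ∀ᶠ q in 𝓝[sphere z 1] (z - n), s ∈ T q)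
    (hcd : ∀ᶠ w in 𝓝 z, c ∈ T w → d ∈ T w → 4 ≤ (T w).ncard) (hcd' : c ≠ d) (hco : c ≠ o)
    (hA : ∃ᶠ ρ : ℝ in 𝓝 0,
      (∀ᶠ q in 𝓝[sphere z 1] (z + slv 1 n 0 ρ), ({r, d} : Set (Fin k)) ⊆ T q) ∧
      ∀ᶠ q in 𝓝[sphere z 1] (z + slv (-1) n 0 ρ), ({s, o} : Set (Fin k)) ⊆ T q)
    (hB : ∃ᶠ ρ : ℝ in 𝓝 0,
      (∀ᶠ q in 𝓝[sphere z 1] (z + slv 1 n 0 ρ), ({r, o} : Set (Fin k)) ⊆ T q) ∧
      ∀ᶠ q in 𝓝[sphere z 1] (z + slv (-1) n 0 ρ), ({s, c} : Set (Fin k)) ⊆ T q) :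
    False := by
  obtain ⟨δ1, hδ1, hcone⟩ := h.cone_single hn hK h2 h3 h1 h4 hr hs hcd
  obtain ⟨δ0, hδ0, harc⟩ := arc_in_cone hn hp hoff
  have hsmall : ∀ᶠ ρ : ℝ in 𝓝 0, |ρ| < min δ0 δ1 := by
    have hca : Continuous fun ρ : ℝ => |ρ| := continuous_abs
    exact (hca.continuousAt (x := 0)).eventually_lt continuousAt_const
      (by simpa using ⟨hδ0, hδ1⟩)
  obtain ⟨ρA, ⟨hA1, hA2⟩, hAs⟩ := (hA.and_eventually hsmall).exists
  obtain ⟨ρB, ⟨hB1, hB2⟩, hBs⟩ := (hB.and_eventually hsmall).exists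
  obtain ⟨δA, hδA, hbA⟩ := Metric.eventually_nhds_iff.1 (h.line_ends' hn hA1 hA2)
  obtain ⟨δB, hδB, hbB⟩ := Metric.eventually_nhds_iff.1 (h.line_ends' hn hB1 hB2)
  have hfr : ∃ᶠ u in 𝓝 p, u ∈ U x := mem_closure_iff_frequently.1 hxp
  obtain ⟨u, hux, hu⟩ := (hfr.and_eventually
    (harc (min δ1 (min δA δB)) (lt_min hδ1 (lt_min hδA hδB)))).exists
  have hzu : dist z u ≠ 1 := fun h1 => h.mx.notMem' hux (by rw [dist_comm]; exact h1) hxz
  obtain ⟨τ, hτc, hτ⟩ := hu hzu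
  set w : ℝ → ℂ := fun ρ => z + τ ρ * ((Complex.I + ρ) * n) with hw
  have hI : ∀ ρ, |ρ| < min δ0 δ1 → ρ ∈ Icc (-δ0) δ0 := fun ρ hρ =>
    abs_le.1 (hρ.le.trans (min_le_left _ _))
  have hxw : ∀ ρ ∈ Icc (-δ0) δ0, x ∉ T (w ρ) := fun ρ hρ hc =>
    h.mx.notMem' hux (by rw [dist_comm]; exact (hτ ρ hρ).2.2) (h.sub _ hc)
  have hseg : ∀ ρ ∈ uIcc ρA ρB, |ρ| < min δ0 δ1 := by
    intro ρ hρ
    have hA' := abs_lt.1 hAs
    have hB' := abs_lt.1 hBs
    rw [abs_lt]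
    rcases mem_uIcc.1 hρ with ⟨g1, g2⟩ | ⟨g1, g2⟩
    · exact ⟨hA'.1.trans_le g1, g2.trans_lt hB'.2⟩
    · exact ⟨hB'.1.trans_le g1, g2.trans_lt hA'.2⟩
  have hone : ∀ ρ ∈ uIcc ρA ρB, (∀ i ∈ T (w ρ), i = o ∨ i = c ∨ i = d) ∧
      ∀ i ∈ T (w ρ), ∀ j ∈ T (w ρ), i = j := by
    intro ρ hρ
    have g1 := hseg ρ hρ
    have g2 := hI ρ g1
    exact hcone (τ ρ) ρ ((hτ ρ g2).2.1.trans_le (min_le_left _ _)) (hτ ρ g2).1
      (g1.trans_le (min_le_right _ _)) (hxw ρ g2)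
  have hwc : ContinuousOn w (uIcc ρA ρB) := by
    have g1 : ContinuousOn τ (uIcc ρA ρB) := hτc.mono fun ρ hρ => hI ρ (hseg ρ hρ)
    have g2 : Continuous fun ρ : ℝ => ((Complex.I + ρ) * n) := by fun_prop
    exact continuousOn_const.add ((Complex.continuous_ofReal.comp_continuousOn g1).mul
      g2.continuousOn)
  -- the ends
  have hAe : c ∈ T (w ρA) := by
    have g1 := hI ρA hAs
    have g2 := hbA (y := τ ρA) (by
      rw [Real.dist_eq, sub_zero]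
      exact (hτ ρA g1).2.1.trans_le ((min_le_right _ _).trans (min_le_left _ _))) (hτ ρA g1).1
    obtain ⟨i, hi⟩ := h.ne (w ρA)
    rcases (hone ρA left_mem_uIcc).1 i hi with rfl | rfl | rfl
    · exact absurd hi g2.2.2.2
    · exact hi
    · exact absurd hi g2.2.1
  have hBe : d ∈ T (w ρB) := by
    have g1 := hI ρB hBs
    have g2 := hbB (y := τ ρB) (by
      rw [Real.dist_eq, sub_zero]
      exact (hτ ρB g1).2.1.trans_le ((min_le_right _ _).trans (min_le_right _ _))) (hτ ρB g1).1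
    obtain ⟨i, hi⟩ := h.ne (w ρB)
    rcases (hone ρB right_mem_uIcc).1 i hi with rfl | rfl | rfl
    · exact absurd hi g2.2.1
    · exact absurd hi g2.2.2.2
    · exact hi
  -- connectedness
  have hpre : IsPreconnected (w '' uIcc ρA ρB) := isPreconnected_uIcc.image w hwc
  have hcl : ∀ i, IsClosed {y | i ∈ T y} := h.closed
  obtain ⟨y, ⟨ρ, hρ, rfl⟩, hy1, hy2⟩ := isPreconnected_closed_iff.1 hpre {y | c ∈ T y}
    ({y | d ∈ T y} ∪ {y | o ∈ T y}) (hcl c) ((hcl d).union (hcl o)) (by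
      rintro _ ⟨ρ, hρ, rfl⟩
      obtain ⟨i, hi⟩ := h.ne (w ρ)
      rcases (hone ρ hρ).1 i hi with rfl | rfl | rfl
      · exact Or.inr (Or.inr hi)
      · exact Or.inl hi
      · exact Or.inr (Or.inl hi)) ⟨w ρA, ⟨ρA, left_mem_uIcc, rfl⟩, hAe⟩
    ⟨w ρB, ⟨ρB, right_mem_uIcc, rfl⟩, Or.inl hBe⟩
  rcases hy2 with hy2 | hy2
  · exact hcd' ((hone ρ hρ).2 c hy1 d hy2)
  · exact hco ((hone ρ hρ).2 c hy1 o hy2)

/-- **A blocked line**, angle coordinate. -/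
theorem block_pt' (h : Irr U T) {z p : ℂ} {v0 : ℝ} (hp : dist p z = 1) (hp1 : p ≠ pt z v0)
    (hp2 : p ≠ pt z (v0 + 3)) {x r s o c d : Fin k}
    (hK : ∀ j, j = x ∨ j = o ∨ j = r ∨ j = s ∨ j = c ∨ j = d)
    (h2 : ∀ q, dist q z = 1 → 2 ≤ (T q).ncard) (h3 : ∀ q, dist q z = 1 → (T q).ncard ≤ 3)
    (hxz : x ∈ Pal U z) (hxp : x ∈ Pal U p)
    (h1 : T (pt z v0) ⊆ {r, o, d}) (h4 : T (pt z (v0 + 3)) ⊆ {s, o, c})
    (hr : ∀ᶠ v in 𝓝 v0, r ∈ T (pt z v)) (hs : ∀ᶠ v in 𝓝 v0, s ∈ T (pt z (v + 3)))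
    (hcd : ∀ᶠ w in 𝓝 z, c ∈ T w → d ∈ T w → 4 ≤ (T w).ncard) (hcd' : c ≠ d) (hco : c ≠ o)
    (hA : ∃ᶠ v : ℝ in 𝓝 v0, ∀ᶠ v' in 𝓝 v, ({r, d} : Set (Fin k)) ⊆ T (pt z v') ∧
      ({s, o} : Set (Fin k)) ⊆ T (pt z (v' + 3)))
    (hB : ∃ᶠ v : ℝ in 𝓝 v0, ∀ᶠ v' in 𝓝 v, ({r, o} : Set (Fin k)) ⊆ T (pt z v') ∧
      ({s, c} : Set (Fin k)) ⊆ T (pt z (v' + 3))) : False := by
  set n : ℂ := cis (v0 * (Real.pi / 3)) with hn
  have hn1 : ‖n‖ = 1 := norm_cis _
  have e1 : z + n = pt z v0 := rfl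
  have e2 : z - n = pt z (v0 + 3) := by rw [pt_three, ← e1]; ring
  have hoff : dt360 (Complex.I * n) (z - p) ≠ 0 := by
    intro h0
    have hnn : n.re ^ 2 + n.im ^ 2 = 1 := by
      have h3 : ‖n‖ ^ 2 = 1 := by rw [hn1]; norm_num
      rw [Complex.sq_norm, Complex.normSq_apply] at h3
      linarith
    have hz1 : (z - p).re ^ 2 + (z - p).im ^ 2 = 1 := by
      have h3 : ‖z - p‖ ^ 2 = 1 := by rw [← dist_eq_norm, dist_comm, hp]; norm_num
      rw [Complex.sq_norm, Complex.normSq_apply] at h3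
      linarith
    have h5 : -n.im * (z - p).re + n.re * (z - p).im = 0 := by
      have e : dt360 (Complex.I * n) (z - p) = -n.im * (z - p).re + n.re * (z - p).im := by
        simp [dt360]
      rw [← e]; exact h0
    set a : ℝ := n.re * (z - p).re + n.im * (z - p).im with ha
    have h6 : a ^ 2 = 1 := by
      have : (n.re ^ 2 + n.im ^ 2) * ((z - p).re ^ 2 + (z - p).im ^ 2) =
        a ^ 2 + (-n.im * (z - p).re + n.re * (z - p).im) ^ 2 := by rw [ha]; ring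
      rw [hnn, hz1, h5] at this
      linarith
    have h7 : z - p = a * n := by
      apply Complex.ext
      · rw [Complex.re_ofReal_mul, ha]
        linear_combination -(z - p).re * hnn + (-n.im) * h5
      · rw [Complex.im_ofReal_mul, ha]
        linear_combination -(z - p).im * hnn + n.re * h5
    have h8 : a = 1 ∨ a = -1 := by
      have : (a - 1) * (a + 1) = 0 := by linear_combination h6
      rcases mul_eq_zero.1 this with h9 | h9
      · left; linarith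
      · right; linarith
    rcases h8 with h8 | h8
    · apply hp2
      rw [← e2]
      rw [h8] at h7
      push_cast at h7
      linear_combination -h7
    · apply hp1
      rw [← e1]
      rw [h8] at h7
      push_cast at h7
      linear_combination -h7
  -- change of coordinate
  let ρ : ℝ → ℝ := fun v => -Real.tan ((v - v0) * (Real.pi / 3))
  have hcos : ∀ᶠ v in 𝓝 v0, 0 < Real.cos ((v - v0) * (Real.pi / 3)) := by
    have hc : Continuous fun v : ℝ => Real.cos ((v - v0) * (Real.pi / 3)) := by fun_prop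
    exact continuousAt_const.eventually_lt hc.continuousAt (by simp)
  have hρ : Tendsto ρ (𝓝 v0) (𝓝 0) := by
    have g1 : ContinuousAt Real.tan ((v0 - v0) * (Real.pi / 3)) := by
      refine Real.continuousAt_tan.2 ?_
      rw [sub_self, zero_mul, Real.cos_zero]
      exact one_ne_zero
    have g2 : ContinuousAt (fun v : ℝ => (v - v0) * (Real.pi / 3)) v0 := by fun_prop
    have g3 : ContinuousAt ρ v0 := by
      have g0 : ContinuousAt (fun v : ℝ => Real.tan ((v - v0) * (Real.pi / 3))) v0 :=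
        ContinuousAt.comp (g := Real.tan) (f := fun v : ℝ => (v - v0) * (Real.pi / 3)) g1 g2
      exact g0.neg
    have g4 : ρ v0 = 0 := by simp [ρ]
    have g5 := g3.tendsto
    rwa [g4] at g5
  have hslv : ∀ᶠ v in 𝓝 v0, z + slv 1 n 0 (ρ v) = pt z v ∧
      z + slv (-1) n 0 (ρ v) = pt z (v + 3) := by
    filter_upwards [hcos] with v hv
    have g1 : z + slv 1 n 0 (ρ v) = pt z v := by
      simp only [ρ]
      rw [slv_tan n hv, hn, ← cis_add]
      unfold pt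
      congr 2
      ring
    refine ⟨g1, ?_⟩
    rw [slv_neg_zero, pt_three, ← g1]
    ring
  have key : ∀ v : ℝ, ∀ a b a' b' : Fin k, (∀ᶠ v' in 𝓝 v, ({a, b} : Set (Fin k)) ⊆ T (pt z v') ∧
      ({a', b'} : Set (Fin k)) ⊆ T (pt z (v' + 3))) →
      (∀ᶠ q in 𝓝[sphere z 1] (pt z v), ({a, b} : Set (Fin k)) ⊆ T q) ∧
      ∀ᶠ q in 𝓝[sphere z 1] (pt z (v + 3)), ({a', b'} : Set (Fin k)) ⊆ T q := by
    intro v a b a' b' hv
    refine ⟨ev_circle z (hv.mono fun v' h => h.1), ev_circle z ?_⟩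
    have g1 : Tendsto (fun w : ℝ => w - 3) (𝓝 (v + 3)) (𝓝 v) := by
      have : Continuous fun w : ℝ => w - 3 := by fun_prop
      have g2 := this.tendsto (v + 3)
      simpa using g2
    filter_upwards [g1.eventually hv] with w hw
    simpa using hw.2
  have hA' : ∃ᶠ ρ : ℝ in 𝓝 0,
      (∀ᶠ q in 𝓝[sphere z 1] (z + slv 1 n 0 ρ), ({r, d} : Set (Fin k)) ⊆ T q) ∧
      ∀ᶠ q in 𝓝[sphere z 1] (z + slv (-1) n 0 ρ), ({s, o} : Set (Fin k)) ⊆ T q := by
    refine hρ.frequently ((hA.and_eventually hslv).mono ?_)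
    rintro v ⟨g0, g3, g4⟩
    rw [g3, g4]
    exact key v r d s o g0
  have hB' : ∃ᶠ ρ : ℝ in 𝓝 0,
      (∀ᶠ q in 𝓝[sphere z 1] (z + slv 1 n 0 ρ), ({r, o} : Set (Fin k)) ⊆ T q) ∧
      ∀ᶠ q in 𝓝[sphere z 1] (z + slv (-1) n 0 ρ), ({s, c} : Set (Fin k)) ⊆ T q := by
    refine hρ.frequently ((hB.and_eventually hslv).mono ?_)
    rintro v ⟨g0, g3, g4⟩
    rw [g3, g4]
    exact key v r o s c g0
  have hr' : ∀ᶠ q in 𝓝[sphere z 1] (z + n), r ∈ T q := by
    rw [e1]; exact ev_circle z hr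
  have hs' : ∀ᶠ q in 𝓝[sphere z 1] (z - n), s ∈ T q := by
    rw [e2]
    refine ev_circle z ?_
    have g1 : Tendsto (fun v : ℝ => v - 3) (𝓝 (v0 + 3)) (𝓝 v0) := by
      have : Continuous fun v : ℝ => v - 3 := by fun_prop
      have g2 := this.tendsto (v0 + 3)
      simpa using g2
    filter_upwards [g1.eventually hs] with v hv
    simpa using hv
  exact h.block_slope' hn1 hp hoff hK h2 h3 hxz hxp (by rw [e1]; exact h1) (by rw [e2]; exact h4)
    hr' hs' hcd hcd' hco hA' hB'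

/-- **Two blocked lines.** -/
theorem kill_B' (h : Irr U T) {z p : ℂ} {u : ℝ} (hp : dist p z = 1) {x r s o c d : Fin k}
    (hK : ∀ j, j = x ∨ j = o ∨ j = r ∨ j = s ∨ j = c ∨ j = d)
    (h2 : ∀ q, dist q z = 1 → 2 ≤ (T q).ncard) (h3 : ∀ q, dist q z = 1 → (T q).ncard ≤ 3)
    (hxz : x ∈ Pal U z) (hxp : x ∈ Pal U p)
    (t1 : T (pt z (u + 1)) ⊆ {r, o, d}) (t4 : T (pt z (u + 4)) ⊆ {s, o, c})
    (t2 : T (pt z (u + 2)) ⊆ {s, o, c}) (t5 : T (pt z (u + 5)) ⊆ {r, o, d})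
    (hr : ∀ᶠ v in 𝓝 u, r ∈ T (pt z (v + 1)) ∧ s ∈ T (pt z (v + 4)) ∧ s ∈ T (pt z (v + 2)) ∧
      r ∈ T (pt z (v + 5)))
    (hcd : ∀ᶠ w in 𝓝 z, c ∈ T w → d ∈ T w → 4 ≤ (T w).ncard) (hcd' : c ≠ d) (hco : c ≠ o)
    (hA : ∃ᶠ v : ℝ in 𝓝 u, ∀ᶠ v' in 𝓝 v, ({r, d} : Set (Fin k)) ⊆ T (pt z (v' + 1)) ∧
      ({s, o} : Set (Fin k)) ⊆ T (pt z (v' + 4)) ∧ ({s, o} : Set (Fin k)) ⊆ T (pt z (v' + 2)) ∧
      ({r, d} : Set (Fin k)) ⊆ T (pt z (v' + 5)))
    (hB : ∃ᶠ v : ℝ in 𝓝 u, ∀ᶠ v' in 𝓝 v, ({r, o} : Set (Fin k)) ⊆ T (pt z (v' + 1)) ∧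
      ({s, c} : Set (Fin k)) ⊆ T (pt z (v' + 4)) ∧ ({s, c} : Set (Fin k)) ⊆ T (pt z (v' + 2)) ∧
      ({r, o} : Set (Fin k)) ⊆ T (pt z (v' + 5))) : False := by
  have e4 : ∀ v : ℝ, v + 4 = (v + 1) + 3 := fun v => by ring
  have e8 : ∀ v : ℝ, pt z (v + 2) = pt z ((v + 5) + 3) := fun v => by
    have : v + 5 + 3 = v + 2 + 6 := by ring
    rw [this, pt_six]
  by_cases hl : p = pt z (u + 1) ∨ p = pt z (u + 4)
  · -- use the line through the positions 5 and 2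
    have n1 : p ≠ pt z (u + 5) := by
      rcases hl with hl | hl
      · intro h0
        have g1 : pt z (u + 1) + pt z (u + 5) = pt z (u + 6) + z := by
          have := pt_sum z (u + 5)
          have a1 : u + 5 + 2 = (u + 1) + 6 := by ring
          have a2 : u + 5 + 1 = u + 6 := by ring
          rw [a1, pt_six, a2] at this
          linear_combination this
        rw [← hl, ← h0] at g1
        have g2 : p - z = pt z (u + 6) - p := by linear_combination g1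
        have g3 : dist p (pt z (u + 5 + 1)) = 1 := by rw [h0]; exact dist_pt_one z (u + 5)
        have g4 : (2 : ℂ) * (p - z) = pt z (u + 6) - z := by linear_combination g1
        have g5 : ‖(2 : ℂ) * (p - z)‖ = 2 := by
          rw [norm_mul, ← dist_eq_norm, hp]; simp
        rw [g4, ← dist_eq_norm, dist_pt] at g5
        norm_num at g5
      · rw [hl]
        exact pt_ne_of z (dist_pt_one' z (by ring))
    have n2 : p ≠ pt z ((u + 5) + 3) := by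
      rw [← e8]
      rcases hl with hl | hl
      · rw [hl]
        exact pt_ne_of z (dist_pt_one' z (by ring))
      · intro h0
        have g1 : pt z (u + 2) + pt z (u + 4) = pt z (u + 3) + z := by
          have := pt_sum z (u + 2)
          have a1 : u + 2 + 2 = u + 4 := by ring
          have a2 : u + 2 + 1 = u + 3 := by ring
          rw [a1, a2] at this
          exact this
        rw [← hl, ← h0] at g1
        have g4 : (2 : ℂ) * (p - z) = pt z (u + 3) - z := by linear_combination g1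
        have g5 : ‖(2 : ℂ) * (p - z)‖ = 2 := by
          rw [norm_mul, ← dist_eq_norm, hp]; simp
        rw [g4, ← dist_eq_norm, dist_pt] at g5
        norm_num at g5
    refine h.block_pt' (v0 := u + 5) hp n1 n2 hK h2 h3 hxz hxp t5 (by rw [← e8]; exact t2)
      (ev_shift (P := fun v => r ∈ T (pt z v)) (hr.mono fun v hv => hv.2.2.2))
      (ev_shift (P := fun v => s ∈ T (pt z (v + 3))) (hr.mono fun v hv => by
        rw [← e8]; exact hv.2.2.1)) hcd hcd' hco ?_ ?_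
    · exact freq_shift (P := fun v => ∀ᶠ v' in 𝓝 v, ({r, d} : Set (Fin k)) ⊆ T (pt z v') ∧
        ({s, o} : Set (Fin k)) ⊆ T (pt z (v' + 3)))
        (hA.mono fun v hv => ev_shift (P := fun v' => ({r, d} : Set (Fin k)) ⊆ T (pt z v') ∧
          ({s, o} : Set (Fin k)) ⊆ T (pt z (v' + 3)))
          (hv.mono fun v' h => ⟨h.2.2.2, by rw [← e8]; exact h.2.2.1⟩))
    · exact freq_shift (P := fun v => ∀ᶠ v' in 𝓝 v, ({r, o} : Set (Fin k)) ⊆ T (pt z v') ∧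
        ({s, c} : Set (Fin k)) ⊆ T (pt z (v' + 3)))
        (hB.mono fun v hv => ev_shift (P := fun v' => ({r, o} : Set (Fin k)) ⊆ T (pt z v') ∧
          ({s, c} : Set (Fin k)) ⊆ T (pt z (v' + 3)))
          (hv.mono fun v' h => ⟨h.2.2.2, by rw [← e8]; exact h.2.2.1⟩))
  · push Not at hl
    refine h.block_pt' (v0 := u + 1) hp hl.1 (by rw [← e4]; exact hl.2) hK h2 h3 hxz hxp t1
      (by rw [← e4]; exact t4)
      (ev_shift (P := fun v => r ∈ T (pt z v)) (hr.mono fun v hv => hv.1))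
      (ev_shift (P := fun v => s ∈ T (pt z (v + 3))) (hr.mono fun v hv => by
        rw [← e4]; exact hv.2.1)) hcd hcd' hco ?_ ?_
    · exact freq_shift (P := fun v => ∀ᶠ v' in 𝓝 v, ({r, d} : Set (Fin k)) ⊆ T (pt z v') ∧
        ({s, o} : Set (Fin k)) ⊆ T (pt z (v' + 3)))
        (hA.mono fun v hv => ev_shift (P := fun v' => ({r, d} : Set (Fin k)) ⊆ T (pt z v') ∧
          ({s, o} : Set (Fin k)) ⊆ T (pt z (v' + 3)))
          (hv.mono fun v' h => ⟨h.1, by rw [← e4]; exact h.2.1⟩))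
    · exact freq_shift (P := fun v => ∀ᶠ v' in 𝓝 v, ({r, o} : Set (Fin k)) ⊆ T (pt z v') ∧
        ({s, c} : Set (Fin k)) ⊆ T (pt z (v' + 3)))
        (hB.mono fun v hv => ev_shift (P := fun v' => ({r, o} : Set (Fin k)) ⊆ T (pt z v') ∧
          ({s, c} : Set (Fin k)) ⊆ T (pt z (v' + 3)))
          (hv.mono fun v' h => ⟨h.1, by rw [← e4]; exact h.2.1⟩))

end Irr

end Vale.Agent.P032.Six
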